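import Mathlib

/-!
# Row 6, P4 local input, part 1: the recurrence of `psi` modulo `p`

`S = ∑_{j<p} u_j w_j^2 ∈ F_p[X]`, `u_j = ∏_{i<2j} (X+1+i)`, `w_j = ∏_{j<i<p} (2X+1+2i)`:
`(2X+1)^3 S + (X+1)^3 S(X+1) = 3 (3X+2) (X^p - X)^2`.
-/

set_option autoImplicit false

open Polynomial Finset

namespace Crest.Agent.R6K.P4L

section modp

variable (p : ℕ) [Fact p.Prime]

lemma prod_range_cast {M : Type*} [CommMonoid M] (g : ZMod p → M) :
    ∏ i ∈ range p, g (i : ZMod p) = ∏ a : ZMod p, g a := by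
  refine Finset.prod_bij (fun i _ => (i : ZMod p)) (fun _ _ => mem_univ _) ?_ ?_ (fun _ _ => rfl)
  · intro a ha b hb h
    rw [mem_range] at ha hb
    have := (ZMod.natCast_eq_natCast_iff' a b p).mp h
    rwa [Nat.mod_eq_of_lt ha, Nat.mod_eq_of_lt hb] at this
  · intro b _
    exact ⟨b.val, mem_range.mpr (ZMod.val_lt b), ZMod.natCast_zmod_val b⟩

lemma prod_X_sub_all : ∏ a : ZMod p, (X - C a) = (X ^ p - X : (ZMod p)[X]) := by
  have hp1 : 1 < p := (Fact.out : p.Prime).one_lt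
  have hroots := FiniteField.roots_X_pow_card_sub_X (ZMod p)
  rw [ZMod.card] at hroots
  have hdeg := FiniteField.X_pow_card_sub_X_natDegree_eq (ZMod p) hp1
  have hmonic : (X ^ p - X : (ZMod p)[X]).Monic := by
    apply monic_X_pow_sub
    rw [degree_X]
    exact_mod_cast hp1
  have h := prod_multiset_X_sub_C_of_monic_of_roots_card_eq hmonic (by
    rw [hroots, hdeg]; simp [ZMod.card])
  rw [hroots] at h
  rw [← h]
  rfl

lemma prod_X_add (c : ZMod p) :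
    ∏ i ∈ range p, (X + C (c + (i : ZMod p))) = (X ^ p - X : (ZMod p)[X]) := by
  rw [prod_range_cast p (fun a => X + C (c + a)), ← prod_X_sub_all p]
  refine Fintype.prod_equiv ((Equiv.addLeft c).trans (Equiv.neg _)) _ _ fun a => ?_
  simp only [Equiv.trans_apply, Equiv.coe_addLeft, Equiv.neg_apply, map_neg, sub_neg_eq_add]

variable {p}

/-- `u_j = ∏_{i<2j} (X+1+i)` -/
noncomputable def u (K : Type*) [CommRing K] (j : ℕ) : K[X] := ∏ i ∈ range (2 * j), (X + 1 + (i : K[X]))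

/-- `v_j = ∏_{j<i≤p} (2X+1+2i)` -/
noncomputable def v (K : Type*) [CommRing K] (p j : ℕ) : K[X] :=
  ∏ i ∈ Ico (j + 1) (p + 1), (2 * X + 1 + 2 * (i : K[X]))

/-- `w_j = ∏_{j<i<p} (2X+1+2i)` -/
noncomputable def w (K : Type*) [CommRing K] (p j : ℕ) : K[X] :=
  ∏ i ∈ Ico (j + 1) p, (2 * X + 1 + 2 * (i : K[X]))

/-- The numerator. -/
noncomputable def S (K : Type*) [CommRing K] (p : ℕ) : K[X] := ∑ j ∈ range p, u K j * w K p j ^ 2

section generic

variable {K : Type*} [CommRing K]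

lemma u_succ (j : ℕ) : u K (j + 1) = u K j * (X + 1 + 2 * (j : K[X])) * (X + 2 + 2 * (j : K[X])) := by
  unfold u
  have e : 2 * (j + 1) = 2 * j + 1 + 1 := by ring
  rw [e, prod_range_succ, prod_range_succ]
  push_cast
  ring

lemma u_comp (j : ℕ) : (X + 1) * (u K j).comp (X + 1) = u K j * (X + 1 + 2 * (j : K[X])) := by
  unfold u
  rw [Polynomial.prod_comp]
  have h1 : ∏ i ∈ range (2 * j + 1), (X + 1 + (i : K[X]))
      = (∏ i ∈ range (2 * j), (X + 1 + (i : K[X]))) * (X + 1 + 2 * (j : K[X])) := by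
    rw [prod_range_succ]; push_cast; ring
  have h2 : ∏ i ∈ range (2 * j + 1), (X + 1 + (i : K[X]))
      = (∏ i ∈ range (2 * j), (X + 1 + ((i + 1 : ℕ) : K[X]))) * (X + 1) := by
    rw [prod_range_succ']; push_cast; ring
  rw [← h1, h2, mul_comm]
  congr 1
  refine prod_congr rfl fun i _ => ?_
  simp only [add_comp, X_comp, one_comp, natCast_comp]
  push_cast
  ring

lemma v_step {p j : ℕ} (h : j < p) : v K p j = (2 * X + 3 + 2 * (j : K[X])) * v K p (j + 1) := by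
  unfold v
  rw [prod_eq_prod_Ico_succ_bot (by omega : j + 1 < p + 1)]
  push_cast
  ring

lemma v_eq_w {p j : ℕ} (h : j < p) : v K p j = w K p j * (2 * X + 1 + 2 * (p : K[X])) := by
  unfold v w
  rw [prod_Ico_succ_top (by omega : j + 1 ≤ p)]

lemma w_comp {p j : ℕ} (h : j < p) : (2 * X + 3 + 2 * (j : K[X])) * (w K p j).comp (X + 1) = v K p j := by
  rw [v_step h]
  congr 1
  unfold v w
  rw [Polynomial.prod_comp]
  have e : ∏ i ∈ Ico (j + 1 + 1) (p + 1), (2 * X + 1 + 2 * (i : K[X]))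
      = ∏ i ∈ Ico (j + 1) p, (2 * X + 1 + 2 * ((i + 1 : ℕ) : K[X])) := by
    rw [← prod_Ico_add' (fun i : ℕ => 2 * X + 1 + 2 * (i : K[X])) (j + 1) p 1]
  rw [e]
  refine prod_congr rfl fun i _ => ?_
  simp only [add_comp, mul_comp, X_comp, one_comp, natCast_comp, ofNat_comp]
  push_cast
  ring

lemma key_cubic (j : K[X]) :
    (2 * X + 3 + 2 * j) ^ 2 * (2 * X + 1) + (X + 1) ^ 2 * (X + 1 + 2 * j)
      = (2 * X + 3 + 2 * j) ^ 2 * (3 * X + 2 * j + 2)
        - (3 * X + 2 * j + 4) * (X + 1 + 2 * j) * (X + 2 + 2 * j) := by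
  ring

end generic

lemma charp_poly : ((p : ℕ) : (ZMod p)[X]) = 0 := by
  rw [← C_eq_natCast]; simp

lemma lin_ne_zero (hp : p ≠ 2) (c : (ZMod p)[X]) (hc : c.natDegree = 0) : 2 * X + c ≠ 0 := by
  intro h
  have h1 := congrArg (fun f : (ZMod p)[X] => f.coeff 1) h
  have h2 : c.coeff 1 = 0 := coeff_eq_zero_of_natDegree_lt (by omega)
  simp only [coeff_add, coeff_zero, h2, add_zero] at h1
  have h3 : ((2 : (ZMod p)[X]) * X).coeff 1 = 2 := by
    rw [show (2 : (ZMod p)[X]) = C 2 from (map_ofNat C 2).symm, coeff_C_mul, coeff_X_one, mul_one]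
  rw [h3] at h1
  have h4 : ((2 : ℕ) : ZMod p) = 0 := by exact_mod_cast h1
  rw [ZMod.natCast_eq_zero_iff] at h4
  have h5 := (Nat.prime_dvd_prime_iff_eq (Fact.out : p.Prime) Nat.prime_two).mp h4
  exact hp h5

lemma tele (hp : p ≠ 2) {j : ℕ} (h : j < p) :
    (2 * X + 1) ^ 3 * (u (ZMod p) j * w (ZMod p) p j ^ 2)
      + (X + 1) ^ 3 * (u (ZMod p) j * w (ZMod p) p j ^ 2).comp (X + 1)
      = (3 * X + 2 * (j : (ZMod p)[X]) + 2) * (u (ZMod p) j * v (ZMod p) p j ^ 2)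
        - (3 * X + 2 * ((j + 1 : ℕ) : (ZMod p)[X]) + 2)
          * (u (ZMod p) (j + 1) * v (ZMod p) p (j + 1) ^ 2) := by
  have ht : (2 * X + 3 + 2 * (j : (ZMod p)[X])) ^ 2 ≠ 0 := by
    apply pow_ne_zero
    have := lin_ne_zero hp (3 + 2 * (j : (ZMod p)[X])) (by
      have : (3 + 2 * (j : (ZMod p)[X])) = ((3 + 2 * j : ℕ) : (ZMod p)[X]) := by push_cast; ring
      rw [this]; exact natDegree_natCast _)
    intro h0
    apply this
    rw [← h0]; ring
  apply mul_left_cancel₀ ht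
  have hu := u_comp (K := ZMod p) j
  have hus := u_succ (K := ZMod p) j
  have hv := v_step (K := ZMod p) h
  have hvw := v_eq_w (K := ZMod p) h
  have hwc := w_comp (K := ZMod p) h
  rw [charp_poly, mul_zero, add_zero] at hvw
  have hkey := key_cubic (j : (ZMod p)[X])
  rw [mul_comp, pow_comp]
  push_cast
  rw [hus]
  generalize (j : (ZMod p)[X]) = J at *
  generalize u (ZMod p) j = U at *
  generalize U.comp (X + 1) = U' at *
  generalize w (ZMod p) p j = Wj at *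
  generalize Wj.comp (X + 1) = W' at *
  generalize v (ZMod p) p (j + 1) = V' at *
  generalize v (ZMod p) p j = V at *
  have e1 : (2 * X + 3 + 2 * J) ^ 2 * ((2 * X + 1) ^ 3 * (U * Wj ^ 2) + (X + 1) ^ 3 * (U' * W' ^ 2))
      = (2 * X + 3 + 2 * J) ^ 2 * (2 * X + 1) * U * (Wj * (2 * X + 1)) ^ 2
        + (X + 1) ^ 2 * ((X + 1) * U') * ((2 * X + 3 + 2 * J) * W') ^ 2 := by ring
  have e2 : (2 * X + 3 + 2 * J) ^ 2 * ((3 * X + 2 * J + 2) * (U * V ^ 2)
      - (3 * X + 2 * (J + 1) + 2) * (U * (X + 1 + 2 * J) * (X + 2 + 2 * J) * V' ^ 2))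
      = (2 * X + 3 + 2 * J) ^ 2 * (3 * X + 2 * J + 2) * (U * V ^ 2)
        - (3 * X + 2 * J + 4) * (X + 1 + 2 * J) * (X + 2 + 2 * J) * U
          * ((2 * X + 3 + 2 * J) * V') ^ 2 := by ring
  rw [e1, e2, ← hvw, hu, hwc, ← hv]
  linear_combination (U * V ^ 2) * hkey

lemma two_pow_p : (2 : (ZMod p)) ^ p = 2 := ZMod.pow_card 2

lemma prod_two (hp : p ≠ 2) :
    ∏ i ∈ range p, (2 * X + 1 + 2 * (i : (ZMod p)[X])) = 2 * (X ^ p - X : (ZMod p)[X]) := by
  have h2 : (2 : ZMod p) ≠ 0 := by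
    intro h1
    have h4 : ((2 : ℕ) : ZMod p) = 0 := by exact_mod_cast h1
    rw [ZMod.natCast_eq_zero_iff] at h4
    exact hp ((Nat.prime_dvd_prime_iff_eq (Fact.out : p.Prime) Nat.prime_two).mp h4)
  have h : ∀ i ∈ range p, (2 * X + 1 + 2 * (i : (ZMod p)[X])) = C 2 * (X + C (2⁻¹ + (i : ZMod p))) := by
    intro i _
    rw [mul_add, ← C_mul, mul_add, mul_inv_cancel₀ h2, C_add, C_1, C_mul, C_eq_natCast]
    simp only [map_ofNat]
    ring
  rw [prod_congr rfl h, prod_mul_distrib, prod_const, card_range, prod_X_add, ← C_pow, two_pow_p]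
  simp only [map_ofNat]

lemma v_zero (hp : p ≠ 2) : v (ZMod p) p 0 = 2 * (X ^ p - X) := by
  rw [← prod_two hp]
  unfold v
  have e0 : ∏ i ∈ Ico (0 + 1) (p + 1), (2 * X + 1 + 2 * (i : (ZMod p)[X]))
      = ∏ i ∈ range p, (2 * X + 1 + 2 * ((i + 1 : ℕ) : (ZMod p)[X])) := by
    rw [← prod_Ico_add' (fun i : ℕ => 2 * X + 1 + 2 * (i : (ZMod p)[X])) 0 p 1, ← range_eq_Ico]
  rw [e0]
  have h1 : ∀ i : ℕ, (2 * X + 1 + 2 * ((i + 1 : ℕ) : (ZMod p)[X]))
      = 2 * X + 1 + 2 * (i : (ZMod p)[X]) + 2 := by intro i; push_cast; ring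
  have h2 : ∏ i ∈ range (p + 1), (2 * X + 1 + 2 * (i : (ZMod p)[X]))
      = (∏ i ∈ range p, (2 * X + 1 + 2 * (i : (ZMod p)[X]))) * (2 * X + 1) := by
    rw [prod_range_succ, charp_poly]; ring
  have h3 : ∏ i ∈ range (p + 1), (2 * X + 1 + 2 * (i : (ZMod p)[X]))
      = (∏ i ∈ range p, (2 * X + 1 + 2 * ((i + 1 : ℕ) : (ZMod p)[X]))) * (2 * X + 1) := by
    rw [prod_range_succ']; push_cast; ring
  rw [h2] at h3
  have h4 : (2 * X + 1 : (ZMod p)[X]) ≠ 0 := lin_ne_zero hp 1 natDegree_one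
  exact (mul_right_cancel₀ h4 h3).symm

lemma v_p : v (ZMod p) p p = 1 := by simp [v]

lemma u_p : u (ZMod p) p = (X ^ p - X) ^ 2 := by
  unfold u
  rw [two_mul, prod_range_add]
  have h1 : ∀ i : ℕ, (X + 1 + (i : (ZMod p)[X])) = X + C (1 + (i : ZMod p)) := by
    intro i; rw [C_add, C_1, C_eq_natCast]; ring
  have h2 : ∀ i : ℕ, (X + 1 + ((p + i : ℕ) : (ZMod p)[X])) = X + C (1 + (i : ZMod p)) := by
    intro i; rw [Nat.cast_add, charp_poly, zero_add, h1]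
  simp only [h2]
  simp only [h1]
  rw [prod_X_add]
  ring

/-- The recurrence for the numerator of `psi` modulo `p`. -/
theorem S_rec (hp : p ≠ 2) :
    (2 * X + 1) ^ 3 * S (ZMod p) p + (X + 1) ^ 3 * (S (ZMod p) p).comp (X + 1)
      = 3 * (3 * X + 2) * (X ^ p - X) ^ 2 := by
  unfold S
  have hcomp : (∑ j ∈ range p, u (ZMod p) j * w (ZMod p) p j ^ 2).comp (X + 1)
      = ∑ j ∈ range p, (u (ZMod p) j * w (ZMod p) p j ^ 2).comp (X + 1) :=
    map_sum (Polynomial.compRingHom (X + 1)) _ _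
  rw [hcomp, mul_sum, mul_sum, ← sum_add_distrib]
  rw [sum_congr rfl fun j hj => tele hp (mem_range.mp hj)]
  have h : ∀ n, ∑ j ∈ range n, ((3 * X + 2 * (j : (ZMod p)[X]) + 2) * (u (ZMod p) j * v (ZMod p) p j ^ 2)
        - (3 * X + 2 * ((j + 1 : ℕ) : (ZMod p)[X]) + 2)
          * (u (ZMod p) (j + 1) * v (ZMod p) p (j + 1) ^ 2))
      = (3 * X + 2 * ((0 : ℕ) : (ZMod p)[X]) + 2) * (u (ZMod p) 0 * v (ZMod p) p 0 ^ 2)
        - (3 * X + 2 * (n : (ZMod p)[X]) + 2) * (u (ZMod p) n * v (ZMod p) p n ^ 2) := by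
    intro n
    exact Finset.sum_range_sub' (fun j : ℕ => (3 * X + 2 * (j : (ZMod p)[X]) + 2)
      * (u (ZMod p) j * v (ZMod p) p j ^ 2)) n
  rw [h, charp_poly, v_zero hp, v_p, u_p]
  have hu0 : u (ZMod p) 0 = 1 := by simp [u]
  rw [hu0]
  push_cast
  ring

end modp

end Crest.Agent.R6K.P4L
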