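import Mathlib
import Crest.Agent.R6K.P4L_Base_630

/-!
# Row 6, P4 local input, part 2: the residue functional modulo `p`
-/

set_option autoImplicit false

open Polynomial Finset

namespace Crest.Agent.R6K.P4L

/-- The key operator: `P ↦ X^3 P + (2X+1)^3 P(X+1)`. -/
noncomputable def op {A : Type*} [CommRing A] (P : A[X]) : A[X] :=
  X ^ 3 * P + (2 * X + 1) ^ 3 * P.comp (X + 1)

section ext

variable {A : Type*} [CommRing A]

lemma natDegree_two_X_add_one : (2 * X + 1 : A[X]).natDegree ≤ 1 := by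
  compute_degree

lemma natDegree_X_add_one : (X + 1 : A[X]).natDegree ≤ 1 := by
  compute_degree

lemma op_X_pow_degree (n : ℕ) : (op (X ^ n : A[X])).natDegree ≤ n + 3 := by
  unfold op
  rw [pow_comp, X_comp]
  refine (natDegree_add_le _ _).trans (max_le ?_ ?_)
  · rw [← pow_add]
    exact (natDegree_X_pow_le _).trans (by omega)
  · refine natDegree_mul_le.trans ?_
    have h1 : ((2 * X + 1 : A[X]) ^ 3).natDegree ≤ 3 := by
      refine natDegree_pow_le.trans ?_
      have := natDegree_two_X_add_one (A := A)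
      omega
    have h2 : ((X + 1 : A[X]) ^ n).natDegree ≤ n := by
      refine natDegree_pow_le.trans ?_
      have := natDegree_X_add_one (A := A)
      nlinarith
    omega

lemma op_X_pow_coeff (n : ℕ) : (op (X ^ n : A[X])).coeff (n + 3) = 9 := by
  unfold op
  rw [pow_comp, X_comp, coeff_add]
  have h1 : ((X : A[X]) ^ 3 * X ^ n).coeff (n + 3) = 1 := by
    rw [← pow_add, add_comm 3 n, coeff_X_pow_self]
  have h2 : ((2 * X + 1 : A[X]) ^ 3 * (X + 1) ^ n).coeff (n + 3) = 8 := by
    have e : n + 3 = 3 * 1 + n * 1 := by ring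
    rw [e, coeff_mul_add_eq_of_natDegree_le (by
        refine natDegree_pow_le.trans ?_
        have := natDegree_two_X_add_one (A := A)
        omega) (by
        refine natDegree_pow_le.trans ?_
        have := natDegree_X_add_one (A := A)
        nlinarith),
      coeff_pow_of_natDegree_le natDegree_two_X_add_one,
      coeff_pow_of_natDegree_le natDegree_X_add_one]
    have e1 : (2 * X + 1 : A[X]).coeff 1 = 2 := by
      rw [coeff_add, show (2 : A[X]) = C 2 from (map_ofNat C 2).symm, coeff_C_mul, coeff_X_one,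
        coeff_one]
      norm_num
    have e2 : (X + 1 : A[X]).coeff 1 = 1 := by
      rw [coeff_add, coeff_X_one, coeff_one]
      norm_num
    rw [e1, e2]
    norm_num
  rw [h1, h2]
  norm_num

/-- A linear map killing the image of `op` and `1, X, X^2` is zero. -/
lemma ext_of_op {M : Type*} [AddCommGroup M] [Module A M] (h9 : IsUnit (9 : A))
    (D : A[X] →ₗ[A] M) (hD : ∀ P, D (op P) = 0) (h0 : D 1 = 0) (h1 : D X = 0)
    (h2 : D (X ^ 2) = 0) : ∀ f, D f = 0 := by
  have key : ∀ n : ℕ, ∀ f : A[X], f.degree < ((n + 3 : ℕ) : WithBot ℕ) → D f = 0 := by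
    intro n
    induction n with
    | zero =>
      intro f hf
      have hf2 : f.natDegree < 3 := by
        rcases eq_or_ne f 0 with rfl | h
        · simp
        · exact (natDegree_lt_iff_degree_lt h).mpr hf
      rw [as_sum_range_C_mul_X_pow' f hf2]
      simp only [sum_range_succ, sum_range_zero, zero_add, pow_zero, mul_one, pow_one, map_add]
      have e0 : D (C (f.coeff 0)) = 0 := by
        have : C (f.coeff 0) = f.coeff 0 • (1 : A[X]) := by rw [smul_eq_C_mul, mul_one]
        rw [this, map_smul, h0, smul_zero]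
      have e1 : D (C (f.coeff 1) * X) = 0 := by
        rw [← smul_eq_C_mul, map_smul, h1, smul_zero]
      have e2 : D (C (f.coeff 2) * X ^ 2) = 0 := by
        rw [← smul_eq_C_mul, map_smul, h2, smul_zero]
      rw [e0, e1, e2]; simp
    | succ n ih =>
      intro f hf
      obtain ⟨u, hu⟩ := h9
      set a : A := f.coeff (n + 3) * ((u⁻¹ : Aˣ) : A) with ha
      have hg : (f - C a * op (X ^ n)).degree < ((n + 3 : ℕ) : WithBot ℕ) := by
        rw [degree_lt_iff_coeff_zero]
        intro m hm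
        rw [coeff_sub, coeff_C_mul]
        rcases eq_or_lt_of_le hm with h | h
        · rw [← h, op_X_pow_coeff, ha, ← hu, mul_assoc, Units.inv_mul, mul_one, sub_self]
        · have h3 : f.coeff m = 0 := by
            rw [degree_lt_iff_coeff_zero] at hf
            exact hf m (by omega)
          have h4 : (op (X ^ n : A[X])).coeff m = 0 :=
            coeff_eq_zero_of_natDegree_lt (lt_of_le_of_lt (op_X_pow_degree n) h)
          rw [h3, h4]; simp
      have h5 := ih _ hg
      rw [map_sub, ← smul_eq_C_mul, map_smul, hD, smul_zero, sub_zero] at h5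
      exact h5
  intro f
  apply key f.natDegree f
  rcases eq_or_ne f 0 with rfl | h
  · rw [degree_zero]; exact WithBot.bot_lt_coe _
  · rw [degree_eq_natDegree h]
    exact_mod_cast (by omega : f.natDegree < f.natDegree + 3)

end ext

section modp

variable (p : ℕ) [Fact p.Prime]

/-- `(X^p - X)^2` -/
noncomputable def th2 : (ZMod p)[X] := (X ^ p - X) ^ 2

lemma th_monic : (X ^ p - X : (ZMod p)[X]).Monic := by
  apply monic_X_pow_sub
  rw [degree_X]
  exact_mod_cast (Fact.out : p.Prime).one_lt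

lemma th2_monic : (th2 p).Monic := (th_monic p).pow 2

lemma th_natDegree : (X ^ p - X : (ZMod p)[X]).natDegree = p :=
  FiniteField.X_pow_card_sub_X_natDegree_eq (ZMod p) (Fact.out : p.Prime).one_lt

lemma th2_natDegree : (th2 p).natDegree = 2 * p := by
  unfold th2
  rw [(th_monic p).natDegree_pow, th_natDegree]

lemma th2_comp : (th2 p).comp (X + 1) = th2 p := by
  unfold th2
  rw [pow_comp, sub_comp, pow_comp, X_comp, add_pow_char, one_pow]
  ring

/-- residue functional -/
noncomputable def Lam : (ZMod p)[X] →ₗ[ZMod p] ZMod p :=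
  (lcoeff (ZMod p) (2 * p - 1)) ∘ₗ (modByMonicHom (th2 p)) ∘ₗ (LinearMap.mulRight (ZMod p) (S (ZMod p) p))

lemma Lam_apply (f : (ZMod p)[X]) : Lam p f = ((f * S (ZMod p) p) %ₘ th2 p).coeff (2 * p - 1) := rfl

variable {p}

lemma natDegree_mod_lt (f : (ZMod p)[X]) : (f %ₘ th2 p).natDegree < 2 * p := by
  have h := natDegree_modByMonic_lt f (th2_monic p) (by
    intro h
    have h1 := congrArg natDegree h
    rw [th2_natDegree, natDegree_one] at h1
    have := (Fact.out : p.Prime).pos
    omega)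
  rwa [th2_natDegree] at h

lemma mod_comp (f : (ZMod p)[X]) : (f.comp (X + 1)) %ₘ th2 p = (f %ₘ th2 p).comp (X + 1) := by
  have h := modByMonic_add_div f (th2 p)
  have h2 := (div_modByMonic_unique (f := f.comp (X + 1)) (g := th2 p) ((f /ₘ th2 p).comp (X + 1))
    ((f %ₘ th2 p).comp (X + 1)) (th2_monic p) ⟨?_, ?_⟩).2
  · exact h2
  · conv_rhs => rw [← h]
    rw [add_comp, mul_comp, th2_comp]
  · rw [degree_eq_natDegree (th2_monic p).ne_zero, th2_natDegree]
    refine lt_of_le_of_lt degree_le_natDegree ?_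
    have h1 : ((f %ₘ th2 p).comp (X + 1)).natDegree ≤ (f %ₘ th2 p).natDegree := by
      refine natDegree_comp_le.trans ?_
      have := natDegree_X_add_one (A := ZMod p)
      nlinarith
    exact_mod_cast lt_of_le_of_lt h1 (natDegree_mod_lt f)

lemma coeff_comp_top (r : (ZMod p)[X]) (n : ℕ) (hr : r.natDegree ≤ n) :
    (r.comp (X + 1)).coeff n = r.coeff n := by
  have e : r.comp (X + 1) = taylor 1 r := by rw [taylor_apply, C_1]
  rw [e]
  rcases eq_or_lt_of_le hr with h | h
  · rw [← h, coeff_taylor_natDegree]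
    rfl
  · rw [coeff_eq_zero_of_natDegree_lt h, coeff_eq_zero_of_natDegree_lt (by rwa [natDegree_taylor])]

lemma coeff_comp_second (r : (ZMod p)[X]) (n : ℕ) (hr : r.natDegree ≤ n + 1) :
    (r.comp (X + 1)).coeff n = r.coeff n + (n + 1) * r.coeff (n + 1) := by
  have e : r.comp (X + 1) = taylor 1 r := by rw [taylor_apply, C_1]
  rw [e, taylor_coeff]
  have h1 : (hasseDeriv n r).natDegree < 2 := by
    have := natDegree_hasseDeriv_le r n
    omega
  rw [as_sum_range_C_mul_X_pow' _ h1]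
  simp only [sum_range_succ, sum_range_zero, zero_add, pow_zero, mul_one, pow_one, eval_add,
    eval_mul, eval_C, eval_X, hasseDeriv_coeff, Nat.choose_self, Nat.cast_one, one_mul]
  rw [add_comm 1 n, Nat.choose_succ_self_right]
  push_cast
  ring

/-- The functional kills the image of `op`. -/
theorem Lam_op (hp : p ≠ 2) (P : (ZMod p)[X]) : Lam p (op P) = 0 := by
  rw [Lam_apply]
  unfold op
  rw [add_mul, add_modByMonic, coeff_add]
  have h1 : ((X ^ 3 * P * S (ZMod p) p) %ₘ th2 p).coeff (2 * p - 1)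
      = (((X + 1) ^ 3 * P.comp (X + 1) * (S (ZMod p) p).comp (X + 1)) %ₘ th2 p).coeff (2 * p - 1) := by
    have e : (X + 1) ^ 3 * P.comp (X + 1) * (S (ZMod p) p).comp (X + 1)
        = (X ^ 3 * P * S (ZMod p) p).comp (X + 1) := by
      rw [mul_comp, mul_comp, pow_comp, X_comp]
    rw [e, mod_comp, coeff_comp_top]
    have := natDegree_mod_lt (X ^ 3 * P * S (ZMod p) p)
    omega
  rw [h1, ← coeff_add, ← add_modByMonic]
  have e2 : (X + 1) ^ 3 * P.comp (X + 1) * (S (ZMod p) p).comp (X + 1)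
      + (2 * X + 1) ^ 3 * P.comp (X + 1) * S (ZMod p) p
      = th2 p * (P.comp (X + 1) * (3 * (3 * X + 2))) := by
    have h := S_rec hp
    have e3 : (X + 1) ^ 3 * P.comp (X + 1) * (S (ZMod p) p).comp (X + 1)
      + (2 * X + 1) ^ 3 * P.comp (X + 1) * S (ZMod p) p
      = P.comp (X + 1) * ((2 * X + 1) ^ 3 * S (ZMod p) p + (X + 1) ^ 3 * (S (ZMod p) p).comp (X + 1)) := by
      ring
    rw [e3, h, th2]
    ring
  rw [e2, (modByMonic_eq_zero_iff_dvd (th2_monic p)).mpr (dvd_mul_right _ _)]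
  simp

lemma Lam_th2 (Q : (ZMod p)[X]) : Lam p (th2 p * Q) = 0 := by
  rw [Lam_apply, mul_assoc, (modByMonic_eq_zero_iff_dvd (th2_monic p)).mpr (dvd_mul_right _ _)]
  simp

lemma S_natDegree : (S (ZMod p) p).natDegree ≤ 2 * p - 2 := by
  unfold S
  apply natDegree_sum_le_of_forall_le
  intro j hj
  rw [mem_range] at hj
  refine natDegree_mul_le.trans ?_
  have h1 : (u (ZMod p) j).natDegree ≤ 2 * j := by
    unfold u
    refine (natDegree_prod_le _ _).trans ?_
    refine (Finset.sum_le_card_nsmul _ _ 1 fun i _ => ?_).trans (by simp)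
    have e : (X + 1 + (i : (ZMod p)[X])) = X + C (1 + (i : ZMod p)) := by
      rw [C_add, C_1, C_eq_natCast]; ring
    rw [e]
    exact natDegree_X_add_C _ |>.le
  have h2 : (w (ZMod p) p j).natDegree ≤ p - (j + 1) := by
    unfold w
    refine (natDegree_prod_le _ _).trans ?_
    refine (Finset.sum_le_card_nsmul _ _ 1 fun i _ => ?_).trans (by simp)
    have e : (2 * X + 1 + 2 * (i : (ZMod p)[X])) = 2 * X + C (1 + 2 * (i : ZMod p)) := by
      rw [C_add, C_1, C_mul, C_eq_natCast]; simp only [map_ofNat]; ring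
    rw [e]
    compute_degree
  have h3 : ((w (ZMod p) p j) ^ 2).natDegree ≤ 2 * (p - (j + 1)) := by
    refine natDegree_pow_le.trans ?_
    omega
  omega

lemma nine_ne (hp : 5 ≤ p) : (9 : ZMod p) ≠ 0 := by
  intro h
  have h1 : ((9 : ℕ) : ZMod p) = 0 := by exact_mod_cast h
  rw [ZMod.natCast_eq_zero_iff] at h1
  have h2 : p ∣ 3 ^ 2 := by simpa using h1
  have h3 := (Fact.out : p.Prime).dvd_of_dvd_pow h2
  have := Nat.le_of_dvd (by norm_num) h3
  omega

lemma S_coeffs (hp : 5 ≤ p) :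
    (S (ZMod p) p).coeff (2 * p - 2) = 1 ∧ 9 * (S (ZMod p) p).coeff (2 * p - 3) = -7 := by
  obtain ⟨n, hn⟩ : ∃ n, 2 * p = n + 3 := ⟨2 * p - 3, by omega⟩
  have e1 : 2 * p - 2 = n + 1 := by omega
  have e2 : 2 * p - 3 = n := by omega
  rw [e1, e2]
  have hdeg := S_natDegree (p := p)
  rw [e1] at hdeg
  have hrec := S_rec (p := p) (by omega)
  set s := S (ZMod p) p with hs
  set r := s.comp (X + 1) with hr
  have hrdeg : r.natDegree ≤ n + 1 := by
    rw [hr]
    refine natDegree_comp_le.trans ?_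
    have := natDegree_X_add_one (A := ZMod p)
    nlinarith
  have hr1 : r.coeff (n + 1) = s.coeff (n + 1) := coeff_comp_top s (n + 1) hdeg
  have hr0 : r.coeff n = s.coeff n + (n + 1) * s.coeff (n + 1) := coeff_comp_second s n hdeg
  have hn1 : ((n : ZMod p) + 3) = 0 := by
    have : ((n + 3 : ℕ) : ZMod p) = ((2 * p : ℕ) : ZMod p) := by rw [hn]
    push_cast at this
    rw [this]; simp
  have hs2 : s.coeff (n + 2) = 0 := coeff_eq_zero_of_natDegree_lt (by omega)
  have hs3 : s.coeff (n + 3) = 0 := coeff_eq_zero_of_natDegree_lt (by omega)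
  have hs4 : s.coeff (n + 4) = 0 := coeff_eq_zero_of_natDegree_lt (by omega)
  have hr2 : r.coeff (n + 2) = 0 := coeff_eq_zero_of_natDegree_lt (by omega)
  have hr3 : r.coeff (n + 3) = 0 := coeff_eq_zero_of_natDegree_lt (by omega)
  have hr4 : r.coeff (n + 4) = 0 := coeff_eq_zero_of_natDegree_lt (by omega)
  have expand : (2 * X + 1) ^ 3 * s + (X + 1) ^ 3 * r
      = 8 * (X ^ 3 * s) + 12 * (X ^ 2 * s) + 6 * (X ^ 1 * s) + s
        + (X ^ 3 * r + 3 * (X ^ 2 * r) + 3 * (X ^ 1 * r) + r) := by ring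
  rw [expand] at hrec
  have hX : ∀ (k : ℕ) (c : ℕ) (f : (ZMod p)[X]) (m : ℕ), ((c : (ZMod p)[X]) * (X ^ k * f)).coeff (m + k)
      = c * f.coeff m := by
    intro k c f m
    rw [← C_eq_natCast, coeff_C_mul, coeff_X_pow_mul]
  have rhs : 3 * (3 * X + 2) * (X ^ p - X : (ZMod p)[X]) ^ 2
      = 9 * X ^ (n + 4) + 6 * X ^ (n + 3) + (3 * (3 * X + 2) * (X ^ 2 - 2 * X ^ (p + 1))) := by
    have e3 : (X : (ZMod p)[X]) ^ (n + 3) = (X ^ p) ^ 2 := by rw [← pow_mul, ← hn]; ring_nf
    have e4 : (X : (ZMod p)[X]) ^ (n + 4) = (X ^ p) ^ 2 * X := by rw [← e3]; ring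
    rw [e3, e4, pow_succ X p]
    ring
  have hlow : (3 * (3 * X + 2) * (X ^ 2 - 2 * X ^ (p + 1)) : (ZMod p)[X]).natDegree ≤ p + 2 := by
    refine natDegree_mul_le.trans ?_
    have a1 : (3 * (3 * X + 2) : (ZMod p)[X]).natDegree ≤ 1 := by compute_degree
    have a2 : (X ^ 2 - 2 * X ^ (p + 1) : (ZMod p)[X]).natDegree ≤ p + 1 := by
      refine (natDegree_sub_le _ _).trans (max_le ?_ ?_)
      · exact (natDegree_X_pow_le _).trans (by omega)
      · rw [show (2 : (ZMod p)[X]) = C 2 from (map_ofNat C 2).symm]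
        exact natDegree_C_mul_X_pow_le _ _
    omega
  rw [rhs] at hrec
  have h9 : ∀ (c k m : ℕ), ((c : (ZMod p)[X]) * X ^ k).coeff m = if m = k then (c : ZMod p) else 0 := by
    intro c k m
    rw [← C_eq_natCast, coeff_C_mul_X_pow]
  have c1 := congrArg (fun f : (ZMod p)[X] => f.coeff (n + 4)) hrec
  have c0 := congrArg (fun f : (ZMod p)[X] => f.coeff (n + 3)) hrec
  simp only [coeff_add] at c1 c0
  have t1 := hX 3 8 s (n + 1)
  have t2 := hX 2 12 s (n + 2)
  have t3 := hX 1 6 s (n + 3)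
  have t4 := hX 3 1 r (n + 1)
  have t5 := hX 2 3 r (n + 2)
  have t6 := hX 1 3 r (n + 3)
  have t1' := hX 3 8 s n
  have t2' := hX 2 12 s (n + 1)
  have t3' := hX 1 6 s (n + 2)
  have t4' := hX 3 1 r n
  have t5' := hX 2 3 r (n + 1)
  have t6' := hX 1 3 r (n + 2)
  have l1 : (3 * (3 * X + 2) * (X ^ 2 - 2 * X ^ (p + 1)) : (ZMod p)[X]).coeff (n + 4) = 0 :=
    coeff_eq_zero_of_natDegree_lt (by omega)
  have l0 : (3 * (3 * X + 2) * (X ^ 2 - 2 * X ^ (p + 1)) : (ZMod p)[X]).coeff (n + 3) = 0 :=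
    coeff_eq_zero_of_natDegree_lt (by omega)
  have m1 := h9 9 (n + 4) (n + 4)
  have m2 := h9 6 (n + 3) (n + 4)
  have m3 := h9 9 (n + 4) (n + 3)
  have m4 := h9 6 (n + 3) (n + 3)
  rw [if_pos rfl] at m1 m4
  simp only [Nat.cast_one, one_mul, Nat.cast_ofNat] at t1 t2 t3 t4 t5 t6 t1' t2' t3' t4' t5' t6' m1 m2 m3 m4
  rw [if_neg (by omega)] at m2 m3
  have a1 : n + 1 + 3 = n + 4 := by ring
  have a2 : n + 2 + 2 = n + 4 := by ring
  have a3 : n + 3 + 1 = n + 4 := by ring
  have a4 : n + 1 + 2 = n + 3 := by ring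
  have a5 : n + 2 + 1 = n + 3 := by ring
  rw [a1] at t1 t4
  rw [a2] at t2 t5
  rw [a3] at t3 t6
  rw [a4] at t2' t5'
  rw [a5] at t3' t6'
  rw [t1, t2, t3, t4, t5, t6, hs4, hr4, m1, m2, l1, hs3, hs2, hr3, hr2, hr1] at c1
  rw [t1', t2', t3', t4', t5', t6', hs3, hr3, m3, m4, l0, hs2, hr2, hr1, hr0] at c0
  have h9ne := nine_ne hp
  have hA : s.coeff (n + 1) = 1 := by
    apply mul_left_cancel₀ h9ne
    linear_combination c1
  refine ⟨hA, ?_⟩
  rw [hA] at c0
  linear_combination c0 - hn1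

lemma Lam_one (hp : 5 ≤ p) : Lam p 1 = 0 := by
  rw [Lam_apply, one_mul]
  have h := S_natDegree (p := p)
  rw [(modByMonic_eq_self_iff (th2_monic p)).mpr]
  · exact coeff_eq_zero_of_natDegree_lt (by omega)
  · rw [degree_eq_natDegree (th2_monic p).ne_zero, th2_natDegree]
    refine lt_of_le_of_lt degree_le_natDegree ?_
    exact_mod_cast (by omega : (S (ZMod p) p).natDegree < 2 * p)

lemma Lam_X (hp : 5 ≤ p) : Lam p X = 1 := by
  rw [Lam_apply]
  have h := S_natDegree (p := p)
  have hX : (X * S (ZMod p) p).natDegree ≤ 2 * p - 1 := by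
    refine natDegree_mul_le.trans ?_
    have := natDegree_X_le (R := ZMod p)
    omega
  rw [(modByMonic_eq_self_iff (th2_monic p)).mpr]
  · have e : 2 * p - 1 = (2 * p - 2) + 1 := by omega
    rw [e, coeff_X_mul]
    exact (S_coeffs hp).1
  · rw [degree_eq_natDegree (th2_monic p).ne_zero, th2_natDegree]
    refine lt_of_le_of_lt degree_le_natDegree ?_
    exact_mod_cast (by omega : (X * S (ZMod p) p).natDegree < 2 * p)

lemma Lam_X_sq (hp : 5 ≤ p) : 9 * Lam p (X ^ 2) = -7 := by
  rw [Lam_apply]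
  have h := S_natDegree (p := p)
  have hlt : ((X ^ 2 * S (ZMod p) p) - th2 p).degree < (th2 p).degree := by
    rw [degree_eq_natDegree (th2_monic p).ne_zero, th2_natDegree, degree_lt_iff_coeff_zero]
    intro m hm
    rw [coeff_sub]
    rcases eq_or_lt_of_le hm with h1 | h1
    · rw [← h1]
      have e : 2 * p = (2 * p - 2) + 2 := by omega
      have h2 : (X ^ 2 * S (ZMod p) p).coeff (2 * p) = 1 := by
        rw [e, coeff_X_pow_mul]; exact (S_coeffs hp).1
      have h3 : (th2 p).coeff (2 * p) = 1 := by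
        have := (th2_monic p).coeff_natDegree
        rwa [th2_natDegree] at this
      rw [h2, h3, sub_self]
    · have h2 : (X ^ 2 * S (ZMod p) p).coeff m = 0 := by
        apply coeff_eq_zero_of_natDegree_lt
        refine lt_of_le_of_lt natDegree_mul_le ?_
        have := natDegree_X_pow_le (R := ZMod p) 2
        omega
      have h3 : (th2 p).coeff m = 0 := by
        apply coeff_eq_zero_of_natDegree_lt
        rwa [th2_natDegree]
      rw [h2, h3, sub_self]
  have hmod : (X ^ 2 * S (ZMod p) p) %ₘ th2 p = (X ^ 2 * S (ZMod p) p) - th2 p := by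
    have := (div_modByMonic_unique (f := X ^ 2 * S (ZMod p) p) (g := th2 p) 1
      ((X ^ 2 * S (ZMod p) p) - th2 p) (th2_monic p) ⟨by ring, hlt⟩).2
    exact this
  rw [hmod, coeff_sub]
  have e : 2 * p - 1 = (2 * p - 3) + 2 := by omega
  have h2 : (X ^ 2 * S (ZMod p) p).coeff (2 * p - 1) = (S (ZMod p) p).coeff (2 * p - 3) := by
    rw [e, coeff_X_pow_mul]
  have h3 : (th2 p).coeff (2 * p - 1) = 0 := by
    have e4 : th2 p = X ^ (2 * p) + (X ^ 2 - 2 * X ^ (p + 1)) := by
      unfold th2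
      have e5 : (X : (ZMod p)[X]) ^ (2 * p) = (X ^ p) ^ 2 := by rw [← pow_mul]; ring_nf
      rw [e5, pow_succ X p]
      ring
    rw [e4, coeff_add, coeff_X_pow, if_neg (by omega), zero_add]
    apply coeff_eq_zero_of_natDegree_lt
    have h6 : (X ^ 2 - 2 * X ^ (p + 1) : (ZMod p)[X]).natDegree ≤ p + 1 := by
      refine (natDegree_sub_le _ _).trans (max_le ?_ ?_)
      · exact (natDegree_X_pow_le _).trans (by omega)
      · rw [show (2 : (ZMod p)[X]) = C 2 from (map_ofNat C 2).symm]
        exact natDegree_C_mul_X_pow_le _ _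
    omega
  rw [h2, h3, sub_zero]
  exact (S_coeffs hp).2

end modp

end Crest.Agent.R6K.P4L
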