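import Mathlib
import Crest.Agent.R6K.P4L_Func_630

/-!
# Row 6, P4 local input, part 3: Lemma L

For every linear `L : A[X] → A` with `L (X^3 P + (2X+1)^3 P(X+1)) = 0`, `L 1 = 0`, `6 L X = -1`,
`54 L X^2 = 7` (i.e. `L f = [s^{-1}] f psi_oo`) and every prime `p ≥ 5`:
`p^(k-1) ∣ L (theta^k Q)`, `theta = ∏_{i<p} (X - i)`.
-/

set_option autoImplicit false

open Polynomial Finset

namespace Crest.Agent.R6K.P4L

/-- `L f = [s^{-1}] (f psi_oo)`. -/
structure IsPsi {A : Type*} [CommRing A] (L : A[X] →ₗ[A] A) : Prop where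
  hop : ∀ P, L (op P) = 0
  hone : L 1 = 0
  hX : 6 * L Polynomial.X = -1
  hX2 : 54 * L (Polynomial.X ^ 2) = 7

/-- `A` has residue field `F_p` at `p`. -/
structure IsRes {A : Type*} [CommRing A] (p : ℕ) (π : A →+* ZMod p) : Prop where
  ker : ∀ a, π a = 0 → (p : A) ∣ a

/-- `theta = ∏_{i<p} (X - i)` -/
noncomputable def theta (A : Type*) [CommRing A] (p : ℕ) : A[X] := ∏ i ∈ range p, (X - (i : A[X]))

/-- `theta' = ∏_{i<p} (2X + 2i + 1)` -/
noncomputable def theta' (A : Type*) [CommRing A] (p : ℕ) : A[X] :=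
  ∏ i ∈ range p, (2 * X + 2 * (i : A[X]) + 1)

/-- the ideal `(p, theta)` -/
noncomputable def J (A : Type*) [CommRing A] (p : ℕ) : Ideal A[X] :=
  Ideal.span {C (p : A)} ⊔ Ideal.span {theta A p}

section

variable {A : Type*} [CommRing A] {p : ℕ} [Fact p.Prime] {π : A →+* ZMod p}
  {L : A[X] →ₗ[A] A}

lemma IsPsi.unit6 (hL : IsPsi L) : IsUnit (6 : A) :=
  IsUnit.of_mul_eq_one (-L Polynomial.X) (by rw [mul_neg, hL.hX, neg_neg])

lemma IsPsi.unit9 (hL : IsPsi L) : IsUnit (9 : A) := by
  refine IsUnit.of_mul_eq_one (4 * (L Polynomial.X) ^ 2) ?_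
  have := hL.hX
  calc (9 : A) * (4 * (L Polynomial.X) ^ 2) = (6 * L Polynomial.X) ^ 2 := by ring
    _ = 1 := by rw [this]; ring

lemma map_op (P : A[X]) : (op P).map π = op (P.map π) := by
  unfold op
  simp only [Polynomial.map_add, Polynomial.map_mul, Polynomial.map_pow, Polynomial.map_X,
    Polynomial.map_comp, Polynomial.map_one, Polynomial.map_ofNat]

/-- reduction of `L` modulo `p` -/
theorem IsPsi.mod_eq (hL : IsPsi L) (hp : 5 ≤ p) (π : A →+* ZMod p) (f : A[X]) :
    π (6 * L f) = -Lam p (f.map π) := by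
  let _ : Module A (ZMod p) := Module.compHom _ π
  have hsmul : ∀ (a : A) (x : ZMod p), a • x = π a * x := fun a x => rfl
  let D : A[X] →ₗ[A] ZMod p :=
    { toFun := fun f => π (6 * L f) + Lam p (f.map π)
      map_add' := by
        intro f g
        simp only [map_add, mul_add, Polynomial.map_add]
        ring
      map_smul' := by
        intro a f
        have h1 : (a • f).map π = (π a) • (f.map π) := by
          rw [smul_eq_C_mul, Polynomial.map_mul, map_C, smul_eq_C_mul]
        simp only [RingHom.id_apply, hsmul, h1, map_smul, smul_eq_mul, map_mul]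
        ring }
  have hD : ∀ f, D f = π (6 * L f) + Lam p (f.map π) := fun f => rfl
  have h := ext_of_op hL.unit9 D (fun P => by
      rw [hD, hL.hop, map_op, Lam_op (by omega)]; simp)
    (by rw [hD, hL.hone, Polynomial.map_one, Lam_one hp]; simp)
    (by rw [hD, hL.hX, Polynomial.map_X, Lam_X hp]; simp)
    (by
      rw [hD, Polynomial.map_pow, Polynomial.map_X]
      have h9 := nine_ne hp
      apply mul_left_cancel₀ h9
      rw [mul_add, Lam_X_sq hp]
      have e : (9 : ZMod p) * π (6 * L (Polynomial.X ^ 2)) = π (54 * L (Polynomial.X ^ 2)) := by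
        have : (54 : A) * L (Polynomial.X ^ 2) = 9 * (6 * L (Polynomial.X ^ 2)) := by ring
        rw [this, map_mul π 9, map_ofNat]
      rw [e, hL.hX2, map_ofNat]
      simp) f
  rw [hD] at h
  exact eq_neg_of_add_eq_zero_left h

lemma map_theta : (theta A p).map π = (X ^ p - X : (ZMod p)[X]) := by
  unfold theta
  rw [Polynomial.map_prod]
  rw [← prod_X_sub_all p, ← prod_range_cast p (fun a => (X - C a : (ZMod p)[X]))]
  refine prod_congr rfl fun i _ => ?_
  simp

lemma map_theta' (hp : p ≠ 2) : (theta' A p).map π = 2 * (X ^ p - X : (ZMod p)[X]) := by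
  unfold theta'
  rw [Polynomial.map_prod, ← prod_two hp]
  refine prod_congr rfl fun i _ => ?_
  simp
  ring

lemma C_dvd_of_map (hπ : IsRes p π) {f : A[X]} (h : f.map π = 0) : C (p : A) ∣ f := by
  rw [C_dvd_iff_dvd_coeff]
  intro i
  apply hπ.ker
  have := congrArg (fun g : (ZMod p)[X] => g.coeff i) h
  simpa using this

lemma exists_eq_add (hπ : IsRes p π) {f g : A[X]} (h : f.map π = g.map π) :
    ∃ k, f = g + C (p : A) * k := by
  obtain ⟨k, hk⟩ := C_dvd_of_map hπ (f := f - g) (by rw [Polynomial.map_sub, h, sub_self])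
  exact ⟨k, by rw [← hk]; ring⟩

lemma map_comp_X_add_p (Q : A[X]) : (Q.comp (X + (p : A[X]))).map π = Q.map π := by
  rw [Polynomial.map_comp, Polynomial.map_add, Polynomial.map_X, Polynomial.map_natCast,
    charp_poly, add_zero, comp_X]

/-- iterated key identity -/
lemma IsPsi.iter (hL : IsPsi L) (m : ℕ) (P : A[X]) :
    L ((∏ i ∈ range m, (Polynomial.X - (i : A[X]))) ^ 3 * P)
      = (-1) ^ m * L ((∏ i ∈ range m, (2 * Polynomial.X + 2 * (i : A[X]) + 1)) ^ 3
        * P.comp (Polynomial.X + (m : A[X]))) := by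
  induction m generalizing P with
  | zero => simp
  | succ m ih =>
    have h1 : (∏ i ∈ range (m + 1), (Polynomial.X - (i : A[X])))
        = Polynomial.X * ∏ i ∈ range m, (Polynomial.X - ((i + 1 : ℕ) : A[X])) := by
      rw [prod_range_succ']; push_cast; ring
    have h2 := hL.hop ((∏ i ∈ range m, (Polynomial.X - ((i + 1 : ℕ) : A[X]))) ^ 3 * P)
    unfold P4L.op at h2
    rw [map_add] at h2
    have h3 : (∏ i ∈ range (m + 1), (Polynomial.X - (i : A[X]))) ^ 3 * P
        = Polynomial.X ^ 3 * ((∏ i ∈ range m, (Polynomial.X - ((i + 1 : ℕ) : A[X]))) ^ 3 * P) := by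
      rw [h1]; ring
    rw [h3, eq_neg_of_add_eq_zero_left h2]
    have h4 : ((∏ i ∈ range m, (Polynomial.X - ((i + 1 : ℕ) : A[X]))) ^ 3 * P).comp (Polynomial.X + 1)
        = (∏ i ∈ range m, (Polynomial.X - (i : A[X]))) ^ 3 * P.comp (Polynomial.X + 1) := by
      rw [mul_comp, pow_comp, Polynomial.prod_comp]
      congr 2
      refine prod_congr rfl fun i _ => ?_
      simp only [sub_comp, X_comp, natCast_comp]
      push_cast
      ring
    rw [h4]
    have h5 : (2 * Polynomial.X + 1) ^ 3 * ((∏ i ∈ range m, (Polynomial.X - (i : A[X]))) ^ 3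
        * P.comp (Polynomial.X + 1))
        = (∏ i ∈ range m, (Polynomial.X - (i : A[X]))) ^ 3
          * ((2 * Polynomial.X + 1) ^ 3 * P.comp (Polynomial.X + 1)) := by ring
    rw [h5, ih]
    have h6 : ((2 * Polynomial.X + 1) ^ 3 * P.comp (Polynomial.X + 1)).comp (Polynomial.X + (m : A[X]))
        = (2 * Polynomial.X + 2 * (m : A[X]) + 1) ^ 3 * P.comp (Polynomial.X + ((m + 1 : ℕ) : A[X])) := by
      rw [mul_comp, comp_assoc]
      congr 1
      · simp only [pow_comp, add_comp, mul_comp, X_comp, one_comp, ofNat_comp]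
        ring
      · congr 1
        simp only [add_comp, X_comp, one_comp]
        push_cast
        ring
    rw [h6, prod_range_succ]
    have h7 : (∏ i ∈ range m, (2 * Polynomial.X + 2 * (i : A[X]) + 1)) ^ 3
        * ((2 * Polynomial.X + 2 * (m : A[X]) + 1) ^ 3 * P.comp (Polynomial.X + ((m + 1 : ℕ) : A[X])))
        = ((∏ i ∈ range m, (2 * Polynomial.X + 2 * (i : A[X]) + 1))
          * (2 * Polynomial.X + 2 * (m : A[X]) + 1)) ^ 3 * P.comp (Polynomial.X + ((m + 1 : ℕ) : A[X])) := by
      ring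
    rw [h7]
    ring

lemma IsPsi.base2 (hL : IsPsi L) (hp : 5 ≤ p) (hπ : IsRes p π) (Q : A[X]) :
    (p : A) ∣ L (theta A p ^ 2 * Q) := by
  have h := hL.mod_eq hp π (theta A p ^ 2 * Q)
  rw [Polynomial.map_mul, Polynomial.map_pow, map_theta] at h
  have h2 := Lam_th2 (p := p) (Q.map π)
  unfold th2 at h2
  rw [h2, neg_zero] at h
  have h3 := hπ.ker _ h
  exact (hL.unit6.dvd_mul_left).mp h3

omit [Fact p.Prime] in
lemma theta_mem_J : theta A p ∈ J A p :=
  Ideal.mem_sup_right (Ideal.mem_span_singleton_self _)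

omit [Fact p.Prime] in
lemma Cp_mem_J : C (p : A) ∈ J A p :=
  Ideal.mem_sup_left (Ideal.mem_span_singleton_self _)

omit [Fact p.Prime] in
lemma J_pow_succ_le (k : ℕ) :
    J A p ^ (k + 1) ≤ Ideal.span {theta A p ^ (k + 1)} ⊔ Ideal.span {C (p : A)} * J A p ^ k := by
  induction k with
  | zero =>
    rw [zero_add, pow_one, pow_one, pow_zero, Ideal.one_eq_top, Ideal.mul_top]
    unfold J
    rw [sup_comm]
  | succ k ih =>
    rw [pow_succ' (J A p) (k + 1)]
    conv_lhs => rw [J]
    rw [Ideal.sup_mul]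
    apply sup_le
    · exact le_sup_right
    · refine (Ideal.mul_mono_right ih).trans ?_
      rw [Ideal.mul_sup]
      apply sup_le
      · rw [Ideal.span_singleton_mul_span_singleton, ← pow_succ']
        exact le_sup_left
      · refine le_trans ?_ le_sup_right
        rw [← mul_assoc, mul_comm (Ideal.span {theta A p}), mul_assoc]
        apply Ideal.mul_mono_right
        rw [pow_succ' (J A p) k]
        apply Ideal.mul_mono_left
        exact le_sup_right

lemma exists_of_mem_J {k : ℕ} {f : A[X]} (hf : f ∈ J A p ^ (k + 1)) :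
    ∃ g h, h ∈ J A p ^ k ∧ f = theta A p ^ (k + 1) * g + C (p : A) * h := by
  have h1 := J_pow_succ_le k hf
  rw [Submodule.mem_sup] at h1
  obtain ⟨a, ha, b, hb, hab⟩ := h1
  rw [Ideal.mem_span_singleton] at ha
  obtain ⟨g, hg⟩ := ha
  rw [Ideal.mem_span_singleton_mul] at hb
  obtain ⟨h, hh, hb⟩ := hb
  exact ⟨g, h, hh, by rw [← hab, hg, hb]⟩

lemma ideal_bound {k : ℕ} (hM : ∀ j ≤ k, ∀ Q, (p : A) ^ (j - 1) ∣ L (theta A p ^ j * Q)) :
    ∀ f ∈ J A p ^ k, (p : A) ^ (k - 1) ∣ L f := by
  induction k with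
  | zero => intro f _; simp
  | succ k ih =>
    intro f hf
    obtain ⟨g, h, hh, rfl⟩ := exists_of_mem_J hf
    rw [map_add]
    apply dvd_add (hM (k + 1) le_rfl g)
    rw [← smul_eq_C_mul, map_smul, smul_eq_mul]
    rcases Nat.eq_zero_or_pos k with hk | hk
    · subst hk; simp
    · have h1 := ih (fun j hj => hM j (by omega)) h hh
      have e : k + 1 - 1 = (k - 1) + 1 := by omega
      rw [e, pow_succ']
      exact mul_dvd_mul_left _ h1

lemma pow_add_eq (m : ℕ) {z : A[X]} :
    ∃ g ∈ J A p ^ (m - 1), (theta A p + C (p : A) * z) ^ m = theta A p ^ m + C (p : A) * g := by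
  induction m with
  | zero => exact ⟨0, Ideal.zero_mem _, by simp⟩
  | succ m ih =>
    obtain ⟨g, hg, h⟩ := ih
    refine ⟨theta A p * g + z * theta A p ^ m + C (p : A) * (z * g), ?_, ?_⟩
    · have e : m + 1 - 1 = m := by omega
      rw [e]
      rcases Nat.eq_zero_or_pos m with hm | hm
      · subst hm; simp
      · obtain ⟨n, rfl⟩ : ∃ n, m = n + 1 := ⟨m - 1, by omega⟩
        have e2 : n + 1 - 1 = n := by omega
        rw [e2] at hg
        refine Ideal.add_mem _ (Ideal.add_mem _ ?_ ?_) ?_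
        · rw [pow_succ']
          exact Ideal.mul_mem_mul theta_mem_J hg
        · exact Ideal.mul_mem_left _ _ (Ideal.pow_mem_pow theta_mem_J _)
        · rw [pow_succ']
          exact Ideal.mul_mem_mul Cp_mem_J (Ideal.mul_mem_left _ _ hg)
    · rw [pow_succ, h]
      ring

/-- **Lemma L.** -/
theorem IsPsi.lemmaL (hL : IsPsi L) (hp : 5 ≤ p) (hπ : IsRes p π) :
    ∀ (k : ℕ) (Q : A[X]), (p : A) ^ (k - 1) ∣ L (theta A p ^ k * Q) := by
  intro k
  induction k using Nat.strong_induction_on with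
  | _ k ih =>
    intro Q
    rcases lt_or_ge k 3 with hk | hk
    · interval_cases k
      · simp
      · simp
      · simpa using hL.base2 hp hπ Q
    · obtain ⟨m, rfl⟩ : ∃ m, k = m + 3 := ⟨k - 3, by omega⟩
      obtain ⟨η, hη⟩ := exists_eq_add hπ (f := theta' A p) (g := 2 * theta A p) (by
        rw [map_theta' (by omega), Polynomial.map_mul, map_theta]; simp)
      obtain ⟨ζ, hζ⟩ := exists_eq_add hπ (f := (theta A p).comp (X + (p : A[X]))) (g := theta A p)
        (map_comp_X_add_p _)
      obtain ⟨Q₁, hQ₁⟩ := exists_eq_add hπ (f := Q.comp (X + (p : A[X]))) (g := Q)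
        (map_comp_X_add_p _)
      have hiter := hL.iter p (theta A p ^ m * Q)
      have e1 : (∏ i ∈ range p, (Polynomial.X - (i : A[X]))) = theta A p := rfl
      have e2 : (∏ i ∈ range p, (2 * Polynomial.X + 2 * (i : A[X]) + 1)) = theta' A p := rfl
      rw [e1, e2, mul_comp, pow_comp, hζ, hQ₁, hη] at hiter
      have hodd : Odd p := (Fact.out : p.Prime).odd_of_ne_two (by omega)
      rw [hodd.neg_one_pow] at hiter
      obtain ⟨g, hg, hpow⟩ := pow_add_eq (A := A) (p := p) m (z := ζ)
      rw [hpow] at hiter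
      set t := theta A p with ht
      set c : A[X] := C (p : A) with hc
      -- the bracket
      let E : A[X] := 12 * t ^ 2 * η + 6 * c * t * η ^ 2 + c ^ 2 * η ^ 3
      let g' : A[X] := E * ((t ^ m + c * g) * (Q + c * Q₁)) + 8 * t ^ 3 * (g * (Q + c * Q₁) + t ^ m * Q₁)
      have hsum : (2 * t + c * η) ^ 3 * ((t ^ m + c * g) * (Q + c * Q₁))
          = 8 * (t ^ 3 * (t ^ m * Q)) + c * g' := by
        simp only [g', E]
        ring
      rw [hsum, map_add, ← smul_eq_C_mul] at hiter
      have h8 : L (8 * (t ^ 3 * (t ^ m * Q))) = 8 * L (t ^ 3 * (t ^ m * Q)) := by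
        have : (8 : A[X]) * (t ^ 3 * (t ^ m * Q)) = (8 : A) • (t ^ 3 * (t ^ m * Q)) := by
          rw [smul_eq_C_mul, map_ofNat]
        rw [this, map_smul, smul_eq_mul]
      rw [h8, map_smul, smul_eq_mul] at hiter
      have h9 : 9 * L (t ^ 3 * (t ^ m * Q)) = -((p : A) * L g') := by
        linear_combination hiter
      have hg' : g' ∈ J A p ^ (m + 2) := by
        have htJ : t ∈ J A p := theta_mem_J
        have hcJ : c ∈ J A p := Cp_mem_J
        have hE : E ∈ J A p ^ 2 := by
          refine Ideal.add_mem _ (Ideal.add_mem _ ?_ ?_) ?_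
          · have : 12 * t ^ 2 * η = (12 * η) * t ^ 2 := by ring
            rw [this]
            exact Ideal.mul_mem_left _ _ (Ideal.pow_mem_pow htJ 2)
          · have : 6 * c * t * η ^ 2 = (6 * η ^ 2) * (c * t) := by ring
            rw [this, pow_two]
            exact Ideal.mul_mem_left _ _ (Ideal.mul_mem_mul hcJ htJ)
          · rw [mul_comm]
            exact Ideal.mul_mem_left _ _ (Ideal.pow_mem_pow hcJ 2)
        have hPm : t ^ m + c * g ∈ J A p ^ m := by
          rcases Nat.eq_zero_or_pos m with hm | hm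
          · subst hm; simp
          · refine Ideal.add_mem _ (Ideal.pow_mem_pow htJ m) ?_
            obtain ⟨n, rfl⟩ : ∃ n, m = n + 1 := ⟨m - 1, by omega⟩
            rw [pow_succ']
            exact Ideal.mul_mem_mul hcJ (by simpa using hg)
        have h3m : t ^ 3 * g ∈ J A p ^ (m + 2) := by
          have h1 : t ^ 3 * g ∈ J A p ^ 3 * J A p ^ (m - 1) :=
            Ideal.mul_mem_mul (Ideal.pow_mem_pow htJ 3) hg
          rw [← pow_add] at h1
          exact Ideal.pow_le_pow_right (by omega) h1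
        have h3t : t ^ 3 * t ^ m ∈ J A p ^ (m + 2) := by
          rw [← pow_add]
          exact Ideal.pow_le_pow_right (by omega) (Ideal.pow_mem_pow htJ (3 + m))
        simp only [g']
        refine Ideal.add_mem _ ?_ ?_
        · have : E * ((t ^ m + c * g) * (Q + c * Q₁)) = (Q + c * Q₁) * ((t ^ m + c * g) * E) := by ring
          rw [this, pow_add]
          exact Ideal.mul_mem_left _ _ (Ideal.mul_mem_mul hPm hE)
        · have : 8 * t ^ 3 * (g * (Q + c * Q₁) + t ^ m * Q₁)
              = (8 * (Q + c * Q₁)) * (t ^ 3 * g) + (8 * Q₁) * (t ^ 3 * t ^ m) := by ring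
          rw [this]
          exact Ideal.add_mem _ (Ideal.mul_mem_left _ _ h3m) (Ideal.mul_mem_left _ _ h3t)
      have hbound := ideal_bound (L := L) (k := m + 2) (fun j hj => ih j (by omega)) g' hg'
      have e5 : m + 2 - 1 = m + 1 := by omega
      rw [e5] at hbound
      have e6 : m + 3 - 1 = (m + 1) + 1 := by omega
      have e7 : theta A p ^ (m + 3) * Q = t ^ 3 * (t ^ m * Q) := by rw [← ht]; ring
      rw [e6, e7]
      have h10 : (p : A) ^ (m + 1 + 1) ∣ 9 * L (t ^ 3 * (t ^ m * Q)) := by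
        rw [h9, pow_succ']
        exact (mul_dvd_mul_left _ hbound).neg_right
      exact (hL.unit9.dvd_mul_left).mp h10

/-- Lemma L on the powers of the ideal `(p, theta)`. -/
theorem IsPsi.dvd_of_mem (hL : IsPsi L) (hp : 5 ≤ p) (hπ : IsRes p π) {k : ℕ} {f : A[X]}
    (hf : f ∈ J A p ^ k) : (p : A) ^ (k - 1) ∣ L f :=
  ideal_bound (fun j _ => hL.lemmaL hp hπ j) f hf

end

end Crest.Agent.R6K.P4L
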