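import Mathlib
import Crest.Agent.R6K.P4L_Main_630
import Crest.Agent.R006.FuncL_170

/-!
# Row 6, P4 local input, part 4: class version of Lemma L

`Jz A p a = (p, X - a)`.  Universal class idempotents `e c ∈ ℤ[X]` (`c < p`), and for every
commutative ring `A` and every `L` with `IsPsi L`:
`p^(min (k-1) (N-1)) ∣ L (e_c (X-c)^k F)` (`c < p/2`), `p^(min (k+2) (N-1)) ∣ ...` (`c > p/2`).
-/

set_option autoImplicit false

open Polynomial Finset

namespace Crest.Agent.R6K.P4L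

/-- the ideal `(p, X - a)` -/
noncomputable def Jz (A : Type*) [CommRing A] (p : ℕ) (a : ℤ) : Ideal A[X] :=
  Ideal.span {C (p : A)} ⊔ Ideal.span {X - C (a : A)}

section ideals

variable {A : Type*} [CommRing A] {p : ℕ}

lemma X_sub_mem_Jz (a : ℤ) : X - C (a : A) ∈ Jz A p a :=
  Ideal.mem_sup_right (Ideal.mem_span_singleton_self _)

lemma Cp_mem_Jz (a : ℤ) : C (p : A) ∈ Jz A p a :=
  Ideal.mem_sup_left (Ideal.mem_span_singleton_self _)

lemma Jz_le_of_dvd {a b : ℤ} (h : (p : ℤ) ∣ a - b) : Jz A p a ≤ Jz A p b := by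
  conv_lhs => unfold Jz
  refine sup_le le_sup_left ?_
  rw [Ideal.span_le, Set.singleton_subset_iff]
  obtain ⟨k, hk⟩ := h
  have h1 : (a : A) = b + p * k := by
    have : a = b + p * k := by linarith
    rw [this]; push_cast; ring
  have h2 : (X - C (a : A)) = (X - C (b : A)) + C (p : A) * (-C (k : A)) := by
    rw [h1, C_add, C_mul]; ring
  rw [h2]
  exact Ideal.add_mem _ (X_sub_mem_Jz b) (Ideal.mul_mem_right _ _ (Cp_mem_Jz b))

lemma Jz_eq_of_dvd {a b : ℤ} (h : (p : ℤ) ∣ a - b) : Jz A p a = Jz A p b :=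
  le_antisymm (Jz_le_of_dvd h) (Jz_le_of_dvd (by rw [← neg_sub]; exact h.neg_right))

lemma Jz_coprime (hp : p.Prime) {a b : ℤ} (h : ¬ (p : ℤ) ∣ a - b) :
    IsCoprime (Jz A p a) (Jz A p b) := by
  rw [Ideal.isCoprime_iff_exists]
  have h1 : IsCoprime (a - b) (p : ℤ) := by
    rw [isCoprime_comm]
    exact (Nat.prime_iff_prime_int.mp hp).coprime_iff_not_dvd.mpr h
  obtain ⟨u, v, huv⟩ := h1
  refine ⟨-C (u : A) * (X - C (a : A)), Ideal.mul_mem_left _ _ (X_sub_mem_Jz a),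
    C (u : A) * (X - C (b : A)) + C (v : A) * C (p : A),
    Ideal.add_mem _ (Ideal.mul_mem_left _ _ (X_sub_mem_Jz b))
      (Ideal.mul_mem_left _ _ (Cp_mem_Jz b)), ?_⟩
  have h2 : (u : A) * (a - b) + v * p = 1 := by exact_mod_cast congrArg (Int.cast : ℤ → A) huv
  have h3 : C (u : A) * (C (a : A) - C (b : A)) + C (v : A) * C (p : A) = 1 := by
    rw [← C_sub, ← C_mul, ← C_mul, ← C_add, h2, C_1]
  linear_combination h3

lemma comp_mem {a b : ℤ} {q : A[X]} (hq : q - C (a : A) ∈ Jz A p b) {k : ℕ} {f : A[X]}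
    (hf : f ∈ Jz A p a ^ k) : f.comp q ∈ Jz A p b ^ k := by
  have h1 : f.comp q ∈ (Jz A p a ^ k).map (compRingHom q) := by
    have := Ideal.mem_map_of_mem (compRingHom q) hf
    rwa [coe_compRingHom_apply] at this
  rw [Ideal.map_pow] at h1
  refine Ideal.pow_right_mono ?_ k h1
  unfold Jz
  rw [Ideal.map_sup, Ideal.map_span, Ideal.map_span, Set.image_singleton, Set.image_singleton]
  refine sup_le ?_ ?_
  · rw [coe_compRingHom_apply, C_comp]
    exact le_sup_left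
  · rw [coe_compRingHom_apply, sub_comp, X_comp, C_comp, Ideal.span_le, Set.singleton_subset_iff]
    exact hq

lemma comp_add_mem {a b n : ℤ} (h : (p : ℤ) ∣ a - (b + n)) {k : ℕ} {f : A[X]}
    (hf : f ∈ Jz A p a ^ k) : f.comp (X + C (n : A)) ∈ Jz A p b ^ k := by
  refine comp_mem ?_ hf
  obtain ⟨m, hm⟩ := h
  have h1 : (a : A) = b + n + p * m := by
    have : a = b + n + p * m := by linarith
    rw [this]; push_cast; ring
  have : (X + C (n : A) - C (a : A)) = (X - C (b : A)) + C (p : A) * (-C (m : A)) := by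
    rw [h1]; simp only [C_add, C_mul]; ring
  rw [this]
  exact Ideal.add_mem _ (X_sub_mem_Jz b) (Ideal.mul_mem_right _ _ (Cp_mem_Jz b))

lemma prod_Jz_le (m : ℕ) : ∏ i ∈ range m, Jz A p (i : ℤ) ≤
    Ideal.span {C (p : A)} ⊔ Ideal.span {∏ i ∈ range m, (X - (i : A[X]))} := by
  induction m with
  | zero => simp
  | succ m ih =>
    rw [prod_range_succ, prod_range_succ]
    refine (Ideal.mul_mono_left ih).trans ?_
    rw [Ideal.sup_mul]
    refine sup_le ?_ ?_
    · have h1 : Ideal.span {C (p : A)} * Jz A p (m : ℤ) ≤ Ideal.span {C (p : A)} :=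
        Ideal.mul_le_left
      exact h1.trans le_sup_left
    · unfold Jz
      rw [Ideal.mul_sup]
      refine sup_le ?_ ?_
      · have h1 : Ideal.span {∏ i ∈ range m, (X - (i : A[X]))} * Ideal.span {C (p : A)}
            ≤ Ideal.span {C (p : A)} := Ideal.mul_le_right
        exact h1.trans le_sup_left
      rw [Ideal.span_singleton_mul_span_singleton]
      have : (X - C (((m : ℕ) : ℤ) : A)) = (X - (m : A[X])) := by
        rw [Int.cast_natCast, C_eq_natCast]
      rw [this]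
      exact le_sup_right

lemma mem_J_of_forall (hp : p.Prime) {N : ℕ} {f : A[X]} (h : ∀ a : ℤ, f ∈ Jz A p a ^ N) :
    f ∈ J A p ^ N := by
  have h1 : f ∈ ⨅ i ∈ range p, Jz A p (i : ℤ) ^ N := by
    simp only [Ideal.mem_iInf]
    exact fun i _ => h i
  rw [← Ideal.prod_eq_iInf_of_pairwise_isCoprime, prod_pow] at h1
  · refine Ideal.pow_right_mono ?_ N h1
    exact prod_Jz_le p
  · intro i hi j hj hij
    simp only [Finset.coe_range, Set.mem_Iio] at hi hj
    apply IsCoprime.pow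
    apply Jz_coprime hp
    intro hd
    apply hij
    have h2 : ((i : ℤ) - j).natAbs < p := by omega
    have h3 := Int.eq_zero_of_dvd_of_natAbs_lt_natAbs hd (by simpa using h2)
    omega

/-- `G` is concentrated at the class of `c` to order `N` and lies in `J_c^k`. -/
def Conc (p : ℕ) (c : ℤ) (N k : ℕ) (G : A[X]) : Prop :=
  (∀ a : ℤ, ¬ (p : ℤ) ∣ a - c → G ∈ Jz A p a ^ N) ∧ G ∈ Jz A p c ^ k

lemma Conc.mem_all {c : ℤ} {N k : ℕ} {G : A[X]} (h : Conc p c N k G) (a : ℤ) :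
    G ∈ Jz A p a ^ min k N := by
  by_cases ha : (p : ℤ) ∣ a - c
  · rw [Jz_eq_of_dvd ha]
    exact Ideal.pow_le_pow_right (min_le_left _ _) h.2
  · exact Ideal.pow_le_pow_right (min_le_right _ _) (h.1 a ha)

lemma Conc.mul_left {c : ℤ} {N k : ℕ} {G : A[X]} (h : Conc p c N k G) (F : A[X]) :
    Conc p c N k (F * G) :=
  ⟨fun a ha => Ideal.mul_mem_left _ _ (h.1 a ha), Ideal.mul_mem_left _ _ h.2⟩

lemma Conc.shift {c : ℤ} {N k : ℕ} {G : A[X]} (h : Conc p c N k G) (n : ℤ) :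
    Conc p (c - n) N k (G.comp (X + C (n : A))) := by
  refine ⟨fun a ha => ?_, ?_⟩
  · refine comp_add_mem (a := a + n) (by simp) (h.1 (a + n) ?_)
    intro hd
    apply ha
    have : a - (c - n) = a + n - c := by ring
    rwa [this]
  · exact comp_add_mem (a := c) (by simp) h.2

lemma Conc.congr {c c' : ℤ} (hc : (p : ℤ) ∣ c - c') {N k : ℕ} {G : A[X]} (h : Conc p c N k G) :
    Conc p c' N k G := by
  refine ⟨fun a ha => h.1 a ?_, ?_⟩
  · intro hd
    apply ha
    have : a - c' = (a - c) + (c - c') := by ring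
    rw [this]
    exact dvd_add hd hc
  · rw [← Jz_eq_of_dvd hc]; exact h.2

/-- inverse of `(2X+1)^3` modulo `J_c^N` -/
lemma exists_inv (hp : p.Prime) {c : ℤ} (hc : ¬ (p : ℤ) ∣ 2 * c + 1) (N : ℕ) :
    ∃ r : A[X], r * (2 * X + 1) ^ 3 - 1 ∈ Jz A p c ^ N := by
  have h1 : IsCoprime (2 * c + 1) (p : ℤ) := by
    rw [isCoprime_comm]
    exact (Nat.prime_iff_prime_int.mp hp).coprime_iff_not_dvd.mpr hc
  obtain ⟨u, v, huv⟩ := h1
  have h2 : (u : A) * (2 * c + 1) + v * p = 1 := by exact_mod_cast congrArg (Int.cast : ℤ → A) huv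
  have h3 : C (u : A) * (2 * C (c : A) + 1) + C (v : A) * C (p : A) = 1 := by
    have e : (2 * C (c : A) + 1 : A[X]) = C (2 * (c : A) + 1) := by
      simp only [C_add, C_mul, C_1, map_ofNat]
    rw [e, ← C_mul, ← C_mul, ← C_add, h2, C_1]
  set y : A[X] := 1 - C (u : A) * (2 * X + 1) with hy
  have hyJ : y ∈ Jz A p c := by
    have : y = C (v : A) * C (p : A) + (-2 * C (u : A)) * (X - C (c : A)) := by
      rw [hy]; linear_combination -h3
    rw [this]
    exact Ideal.add_mem _ (Ideal.mul_mem_left _ _ (Cp_mem_Jz c))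
      (Ideal.mul_mem_left _ _ (X_sub_mem_Jz c))
  -- s (2X+1) = 1 - y^N
  obtain ⟨s, hs⟩ : ∃ s : A[X], s * (2 * X + 1) = 1 - y ^ N := by
    obtain ⟨t, ht⟩ := sub_dvd_pow_sub_pow (1 : A[X]) y N
    refine ⟨t * C (u : A), ?_⟩
    rw [one_pow] at ht
    rw [ht, hy]
    ring
  refine ⟨s ^ 3, ?_⟩
  have : s ^ 3 * (2 * X + 1) ^ 3 - 1 = (-3 + 3 * y ^ N - (y ^ N) ^ 2) * y ^ N := by
    have : s ^ 3 * (2 * X + 1) ^ 3 = (s * (2 * X + 1)) ^ 3 := by ring
    rw [this, hs]; ring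
  rw [this]
  exact Ideal.mul_mem_left _ _ (Ideal.pow_mem_pow hyJ N)

end ideals

section class_L

variable {A : Type*} [CommRing A] {p : ℕ} [Fact p.Prime] {π : A →+* ZMod p}
  {L : A[X] →ₗ[A] A}

/-- polar classes (valid for all classes) -/
theorem IsPsi.conc_polar (hL : IsPsi L) (hp : 5 ≤ p) (hπ : IsRes p π) {c : ℤ} {N k : ℕ} {G : A[X]}
    (h : Conc p c N k G) : (p : A) ^ (min k N - 1) ∣ L G :=
  hL.dvd_of_mem hp hπ (mem_J_of_forall Fact.out h.mem_all)

lemma IsPsi.step (hL : IsPsi L) (P : A[X]) :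
    L (X ^ 3 * P) = -L ((2 * X + 1) ^ 3 * P.comp (X + 1)) := by
  have h := hL.hop P
  unfold P4L.op at h
  rw [map_add] at h
  exact eq_neg_of_add_eq_zero_left h

/-- one step of the class argument -/
lemma IsPsi.conc_step (hL : IsPsi L) (hp : 5 ≤ p) (hπ : IsRes p π) {c : ℤ} {N k : ℕ} {G : A[X]}
    (h : Conc p c N k G) (hc : ¬ (p : ℤ) ∣ 2 * c + 1) {m : ℕ} (hm : m ≤ N - 1)
    (hnext : ∀ P : A[X], Conc p (c + 1) N k P → (p : A) ^ m ∣ L (X ^ 3 * P)) :
    (p : A) ^ m ∣ L G := by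
  have hpp : p.Prime := Fact.out
  obtain ⟨r, hr⟩ := exists_inv (A := A) hpp hc N
  have hP : Conc p (c + 1) N k ((r * G).comp (X - 1)) := by
    have h1 := (h.mul_left r).shift (-1)
    have e1 : (X + C (((-1 : ℤ)) : A)) = (X - 1 : A[X]) := by
      simp [sub_eq_add_neg]
    rw [e1] at h1
    simpa using h1
  have h2 := hL.step ((r * G).comp (X - 1))
  have h3 : ((r * G).comp (X - 1)).comp (X + 1) = r * G := by
    rw [comp_assoc]
    have : (X - 1 : A[X]).comp (X + 1) = X := by simp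
    rw [this, comp_X]
  rw [h3] at h2
  have h4 : (2 * X + 1) ^ 3 * (r * G) = G + (r * (2 * X + 1) ^ 3 - 1) * G := by ring
  rw [h4, map_add] at h2
  have h5 : (p : A) ^ (N - 1) ∣ L ((r * (2 * X + 1) ^ 3 - 1) * G) := by
    apply hL.dvd_of_mem hp hπ
    apply mem_J_of_forall hpp
    intro a
    by_cases ha : (p : ℤ) ∣ a - c
    · rw [Jz_eq_of_dvd ha]
      exact Ideal.mul_mem_right _ _ hr
    · exact Ideal.mul_mem_left _ _ (h.1 a ha)
  have h6 : L G = -(L (X ^ 3 * (r * G).comp (X - 1))) - L ((r * (2 * X + 1) ^ 3 - 1) * G) := by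
    linear_combination h2
  rw [h6]
  exact dvd_sub (hnext _ hP).neg_right ((pow_dvd_pow _ hm).trans h5)

/-- regular classes: `c = p - 1 - d`, `2 c > p` -/
theorem IsPsi.conc_regular (hL : IsPsi L) (hp : 5 ≤ p) (hπ : IsRes p π) {N k : ℕ} :
    ∀ d : ℕ, 2 * d + 2 < p → ∀ G : A[X], Conc p (-(d : ℤ) - 1) N k G →
      (p : A) ^ (min (k + 3) N - 1) ∣ L G := by
  have hpp : p.Prime := Fact.out
  intro d
  induction d with
  | zero =>
    intro _ G hG
    refine hL.conc_step hp hπ hG ?_ (by omega) ?_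
    · intro hd
      have h1 : (2 * (-((0 : ℕ) : ℤ) - 1) + 1 : ℤ) = -1 := by norm_num
      rw [h1] at hd
      have := Int.le_of_dvd (by norm_num) (dvd_neg.mp hd)
      omega
    · intro P hP
      have hP0 : Conc p 0 N k P := by simpa using hP
      have h2 : Conc p 0 N (k + 3) (X ^ 3 * P) := by
        refine ⟨(hP0.mul_left (X ^ 3)).1, ?_⟩
        rw [add_comm k 3, pow_add]
        have hX : (X : A[X]) ∈ Jz A p 0 := by
          have := X_sub_mem_Jz (A := A) (p := p) 0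
          simpa using this
        exact Ideal.mul_mem_mul (Ideal.pow_mem_pow hX 3) hP0.2
      exact hL.conc_polar hp hπ h2
  | succ d ih =>
    intro hd G hG
    refine hL.conc_step hp hπ hG ?_ (by omega) ?_
    · intro hdv
      have h1 : (2 * (-((d + 1 : ℕ) : ℤ) - 1) + 1 : ℤ) = -(2 * d + 3) := by push_cast; ring
      rw [h1, dvd_neg] at hdv
      obtain ⟨t, ht⟩ := hdv
      have ht1 : 0 < t := by
        by_contra hcon
        have : (p : ℤ) * t ≤ 0 := mul_nonpos_of_nonneg_of_nonpos (by positivity) (by omega)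
        omega
      have ht2 : (p : ℤ) ≤ p * t := by
        nlinarith [(by positivity : (0 : ℤ) ≤ p)]
      omega
    · intro P hP
      apply ih (by omega)
      have h2 := hP.mul_left (X ^ 3)
      have e : (-((d + 1 : ℕ) : ℤ) - 1 + 1) = -(d : ℤ) - 1 := by push_cast; ring
      rwa [e] at h2

end class_L

section idem

/-- universal class idempotents -/
structure IsIdem (p N : ℕ) (e : ℕ → ℤ[X]) : Prop where
  sum_eq : ∑ c ∈ range p, e c = 1
  off : ∀ c < p, ∀ c' < p, c' ≠ c → e c ∈ Jz ℤ p c' ^ N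

lemma not_dvd_of_lt {p i j : ℕ} (hi : i < p) (hj : j < p) (hij : i ≠ j) :
    ¬ (p : ℤ) ∣ (i : ℤ) - j := by
  intro hd
  apply hij
  have h2 : ((i : ℤ) - j).natAbs < p := by omega
  have h3 := Int.eq_zero_of_dvd_of_natAbs_lt_natAbs hd (by simpa using h2)
  omega

theorem exists_idem {p : ℕ} (hp : p.Prime) (N : ℕ) : ∃ e, IsIdem p N e := by
  have h : (⨆ i ∈ range p, ⨅ (j) (_ : j ∈ range p) (_ : j ≠ i), Jz ℤ p (j : ℤ) ^ N) = ⊤ := by
    rw [Ideal.iSup_iInf_eq_top_iff_pairwise ⟨0, by simp [hp.pos]⟩]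
    intro i hi j hj hij
    rw [← Ideal.isCoprime_iff_sup_eq]
    simp only [Finset.coe_range, Set.mem_Iio] at hi hj
    exact IsCoprime.pow (Jz_coprime hp (not_dvd_of_lt hi hj hij))
  have h1 : (1 : ℤ[X]) ∈ (⨆ i ∈ range p, ⨅ (j) (_ : j ∈ range p) (_ : j ≠ i),
      Jz ℤ p (j : ℤ) ^ N) := by rw [h]; trivial
  rw [Submodule.mem_iSup_finset_iff_exists_sum] at h1
  obtain ⟨μ, hμ⟩ := h1
  refine ⟨fun c => (μ c : ℤ[X]), hμ, ?_⟩
  intro c _ c' hc' hne
  have h2 := (μ c).2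
  simp only [Submodule.mem_iInf] at h2
  exact h2 c' (mem_range.mpr hc') hne

namespace IsIdem

variable {p N : ℕ} {e : ℕ → ℤ[X]}

lemma off_int (he : IsIdem p N e) (hp : 0 < p) {c : ℕ} (hc : c < p) {a : ℤ}
    (ha : ¬ (p : ℤ) ∣ a - c) : e c ∈ Jz ℤ p a ^ N := by
  have hp' : (p : ℤ) ≠ 0 := by omega
  have h0 := Int.emod_nonneg a hp'
  have h1 := Int.emod_lt_of_pos a (by omega : (0 : ℤ) < p)
  have h2 : (p : ℤ) ∣ ((a % p).toNat : ℤ) - a := by
    rw [Int.toNat_of_nonneg h0]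
    exact ⟨-(a / p), by have := Int.mul_ediv_add_emod a p; linarith⟩
  rw [← Jz_eq_of_dvd h2]
  refine he.off c hc _ (by omega) ?_
  intro h3
  apply ha
  rw [h3] at h2
  rw [← neg_sub]
  exact h2.neg_right

lemma on (he : IsIdem p N e) {c : ℕ} (hc : c < p) : e c - 1 ∈ Jz ℤ p c ^ N := by
  rw [← he.sum_eq, ← Finset.add_sum_erase _ _ (mem_range.mpr hc)]
  have : e c - (e c + ∑ x ∈ (range p).erase c, e x) = -∑ x ∈ (range p).erase c, e x := by ring
  rw [this]
  refine neg_mem (Ideal.sum_mem _ fun x hx => ?_)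
  rw [mem_erase, mem_range] at hx
  exact he.off x hx.2 c hc (Ne.symm hx.1)

end IsIdem

lemma map_mem {A B : Type*} [CommRing A] [CommRing B] (φ : A →+* B) {p : ℕ} {a : ℤ} {k : ℕ}
    {f : A[X]} (hf : f ∈ Jz A p a ^ k) : f.map φ ∈ Jz B p a ^ k := by
  have h1 : f.map φ ∈ (Jz A p a ^ k).map (mapRingHom φ) := by
    have := Ideal.mem_map_of_mem (mapRingHom φ) hf
    rwa [coe_mapRingHom] at this
  rw [Ideal.map_pow] at h1
  refine Ideal.pow_right_mono ?_ k h1
  unfold Jz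
  rw [Ideal.map_sup, Ideal.map_span, Ideal.map_span, Set.image_singleton, Set.image_singleton,
    coe_mapRingHom, map_C, Polynomial.map_sub, Polynomial.map_X, map_C, map_natCast, map_intCast]

/-- the idempotent over `A` -/
noncomputable def eA (A : Type*) [CommRing A] (e : ℕ → ℤ[X]) (c : ℕ) : A[X] :=
  (e c).map (Int.castRingHom A)

section A

variable {A : Type*} [CommRing A] {p N : ℕ} {e : ℕ → ℤ[X]}

lemma IsIdem.sumA (he : IsIdem p N e) : ∑ c ∈ range p, eA A e c = 1 := by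
  unfold eA
  rw [← Polynomial.map_sum, he.sum_eq, Polynomial.map_one]

lemma IsIdem.offA (he : IsIdem p N e) (hp : 0 < p) {c : ℕ} (hc : c < p) {a : ℤ}
    (ha : ¬ (p : ℤ) ∣ a - c) : eA A e c ∈ Jz A p a ^ N :=
  map_mem _ (he.off_int hp hc ha)

lemma IsIdem.onA (he : IsIdem p N e) {c : ℕ} (hc : c < p) : eA A e c - 1 ∈ Jz A p c ^ N := by
  have := map_mem (Int.castRingHom A) (he.on hc)
  rwa [Polynomial.map_sub, Polynomial.map_one] at this

lemma IsIdem.conc (he : IsIdem p N e) (hp : 0 < p) {c : ℕ} (hc : c < p) (k : ℕ) (F : A[X]) :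
    Conc p c N k (eA A e c * ((X - C (c : A)) ^ k * F)) := by
  refine ⟨fun a ha => Ideal.mul_mem_right _ _ (he.offA hp hc ha), ?_⟩
  refine Ideal.mul_mem_left _ _ (Ideal.mul_mem_right _ _ (Ideal.pow_mem_pow ?_ k))
  have := X_sub_mem_Jz (A := A) (p := p) (c : ℤ)
  simpa using this

lemma IsIdem.comp_sub (he : IsIdem p N e) (hp : p.Prime) {c c' : ℕ} (hc : c < p) (hc' : c' < p)
    (h : (p : ℤ) ∣ c - (c' + 1)) : (eA A e c).comp (X + 1) - eA A e c' ∈ J A p ^ N := by
  apply mem_J_of_forall hp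
  intro a
  have e1 : (X + C ((1 : ℤ) : A)) = (X + 1 : A[X]) := by simp
  by_cases ha : (p : ℤ) ∣ a - c'
  · have h1 : (eA A e c - 1).comp (X + C ((1 : ℤ) : A)) ∈ Jz A p a ^ N := by
      refine comp_add_mem (a := (c : ℤ)) ?_ (he.onA hc)
      have : (c : ℤ) - (a + 1) = (c - (c' + 1)) - (a - c') := by ring
      rw [this]
      exact dvd_sub h ha
    have h2 : eA A e c' - 1 ∈ Jz A p a ^ N := by
      rw [Jz_eq_of_dvd ha]; exact he.onA hc'
    rw [e1, sub_comp, one_comp] at h1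
    have : (eA A e c).comp (X + 1) - eA A e c' = ((eA A e c).comp (X + 1) - 1) - (eA A e c' - 1) := by
      ring
    rw [this]
    exact Ideal.sub_mem _ h1 h2
  · have h1 : (eA A e c).comp (X + C ((1 : ℤ) : A)) ∈ Jz A p a ^ N := by
      refine comp_add_mem (a := a + 1) (by simp) (he.offA hp.pos hc ?_)
      intro hd
      apply ha
      have : a - c' = (a + 1 - c) + (c - (c' + 1)) := by ring
      rw [this]
      exact dvd_add hd h
    rw [e1] at h1
    exact Ideal.sub_mem _ h1 (he.offA hp.pos hc' ha)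

end A

end idem

end Crest.Agent.R6K.P4L
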