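import Mathlib
import Crest.Agent.R6K.P4L_Class_630

/-!
# Row 6, P4 local input, part 5: Lemma L and its class version over every commutative ring

Base change from `ℤ[1/6]`: for every commutative ring `A` and every `L` with `IsPsi L`
(no hypothesis on the residue ring):

* `IsPsi.lemmaL_gen : p^(k-1) ∣ L (theta^k Q)`;
* `IsPsi.class_polar : p^(min k N - 1) ∣ L (e_c (X-c)^k F)` for all `c < p`;
* `IsPsi.class_regular : p^(min (k+3) N - 1) ∣ L (e_c (X-c)^k F)` for `p < 2 c`, `c < p`.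
-/

set_option autoImplicit false

open Polynomial Finset

namespace Crest.Agent.R6K.P4L

/-- `ℤ[1/6]` -/
abbrev U6 : Type := Localization.Away (6 : ℤ)

/-- `1/6` -/
noncomputable def w6 : U6 := IsLocalization.Away.invSelf (6 : ℤ)

lemma six_w6 : (6 : U6) * w6 = 1 := by
  have h := IsLocalization.Away.mul_invSelf (S := U6) (6 : ℤ)
  rw [map_ofNat] at h
  exact h

/-- the universal functional -/
noncomputable def L6 : U6[X] →ₗ[U6] U6 :=
  Crest.Agent.R006.FuncLx170.Lam
    (Crest.Agent.R006.FuncLx170.seq (4 * w6 ^ 2) 0 (-w6) (28 * w6 ^ 3))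

lemma isPsi_L6 : IsPsi L6 := by
  have h6 := six_w6
  have hu : (9 : U6) * (4 * w6 ^ 2) = 1 := by
    linear_combination (6 * w6 + 1) * h6
  refine ⟨fun P => Crest.Agent.R006.FuncLx170.seq_key _ _ _ _ hu P, ?_, ?_, ?_⟩
  · unfold L6
    rw [Crest.Agent.R006.FuncLx170.Lam_one, Crest.Agent.R006.FuncLx170.seq]
  · unfold L6
    rw [Crest.Agent.R006.FuncLx170.Lam_X, Crest.Agent.R006.FuncLx170.seq]
    linear_combination -h6
  · unfold L6
    rw [Crest.Agent.R006.FuncLx170.Lam_X_pow, Crest.Agent.R006.FuncLx170.seq]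
    linear_combination 7 * (36 * w6 ^ 2 + 6 * w6 + 1) * h6

section res

variable {p : ℕ} [Fact p.Prime]

lemma six_unit (hp : 5 ≤ p) : IsUnit ((Int.castRingHom (ZMod p)) 6) := by
  rw [isUnit_iff_ne_zero]
  intro h
  have h1 : ((6 : ℕ) : ZMod p) = 0 := by simpa using h
  rw [ZMod.natCast_eq_zero_iff] at h1
  have hpp : p.Prime := Fact.out
  have h2 : p ∣ 2 * 3 := by simpa using h1
  rcases (Nat.Prime.dvd_mul hpp).mp h2 with h | h
  · have := Nat.le_of_dvd (by norm_num) h; omega
  · have := Nat.le_of_dvd (by norm_num) h; omega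

/-- reduction mod `p` of `ℤ[1/6]` -/
noncomputable def pi6 (hp : 5 ≤ p) : U6 →+* ZMod p := IsLocalization.Away.lift (6 : ℤ) (six_unit hp)

lemma isRes_pi6 (hp : 5 ≤ p) : IsRes p (pi6 hp) := by
  refine ⟨fun a ha => ?_⟩
  obtain ⟨n, m, hm⟩ := IsLocalization.Away.surj (6 : ℤ) a
  have h1 := congrArg (pi6 hp) hm
  rw [map_mul, ha, zero_mul, pi6, IsLocalization.Away.lift_eq] at h1
  have h2 : (p : ℤ) ∣ m := by
    rw [← ZMod.intCast_zmod_eq_zero_iff_dvd]
    exact h1.symm
  obtain ⟨t, rfl⟩ := h2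
  refine ⟨(algebraMap ℤ U6 t) * w6 ^ n, ?_⟩
  have h3 : a * 6 ^ n = p * algebraMap ℤ U6 t := by
    rw [map_mul, map_natCast, map_ofNat] at hm
    exact hm
  have h4 : (6 : U6) ^ n * w6 ^ n = 1 := by rw [← mul_pow, six_w6, one_pow]
  calc a = a * (6 ^ n * w6 ^ n) := by rw [h4, mul_one]
    _ = (a * 6 ^ n) * w6 ^ n := by ring
    _ = p * ((algebraMap ℤ U6 t) * w6 ^ n) := by rw [h3]; ring

end res

section gen

variable {A : Type*} [CommRing A] {L : A[X] →ₗ[A] A}

lemma IsPsi.unit6' (hL : IsPsi L) : IsUnit ((Int.castRingHom A) 6) := by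
  have := hL.unit6
  simpa using this

/-- the map `ℤ[1/6] → A` -/
noncomputable def IsPsi.phi (hL : IsPsi L) : U6 →+* A := IsLocalization.Away.lift (6 : ℤ) hL.unit6'

theorem IsPsi.map_eq (hL : IsPsi L) (f : U6[X]) : L (f.map hL.phi) = hL.phi (L6 f) := by
  let _ : Module U6 A := Module.compHom _ hL.phi
  have hsmul : ∀ (a : U6) (x : A), a • x = hL.phi a * x := fun a x => rfl
  let D : U6[X] →ₗ[U6] A :=
    { toFun := fun f => L (f.map hL.phi) - hL.phi (L6 f)
      map_add' := by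
        intro f g
        simp only [map_add, Polynomial.map_add]
        ring
      map_smul' := by
        intro a f
        have h1 : (a • f).map hL.phi = (hL.phi a) • (f.map hL.phi) := by
          rw [smul_eq_C_mul, Polynomial.map_mul, map_C, smul_eq_C_mul]
        simp only [RingHom.id_apply, hsmul, h1, map_smul, smul_eq_mul, map_mul]
        ring }
  have hD : ∀ f, D f = L (f.map hL.phi) - hL.phi (L6 f) := fun f => rfl
  have hu6 : IsUnit (6 : A) := hL.unit6
  have h := ext_of_op isPsi_L6.unit9 D (fun P => by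
      rw [hD, isPsi_L6.hop, map_zero, sub_zero]
      have : (op P).map hL.phi = op (P.map hL.phi) := by
        unfold op
        simp only [Polynomial.map_add, Polynomial.map_mul, Polynomial.map_pow, Polynomial.map_X,
          Polynomial.map_comp, Polynomial.map_one, Polynomial.map_ofNat]
      rw [this, hL.hop])
    (by rw [hD, isPsi_L6.hone, Polynomial.map_one, hL.hone]; simp)
    (by
      rw [hD, Polynomial.map_X]
      apply hu6.mul_left_cancel
      have h1 := congrArg hL.phi isPsi_L6.hX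
      rw [map_mul, map_ofNat, map_neg, map_one] at h1
      rw [mul_sub, hL.hX, h1]; simp)
    (by
      rw [hD, Polynomial.map_pow, Polynomial.map_X]
      have hu54 : IsUnit (54 : A) := by
        refine IsUnit.of_mul_eq_one (-4 * (L Polynomial.X) ^ 3) ?_
        have := hL.hX
        calc (54 : A) * (-4 * (L Polynomial.X) ^ 3) = -(6 * L Polynomial.X) ^ 3 := by ring
          _ = 1 := by rw [this]; ring
      apply hu54.mul_left_cancel
      have h1 := congrArg hL.phi isPsi_L6.hX2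
      rw [map_mul, map_ofNat, map_ofNat] at h1
      rw [mul_sub, hL.hX2, h1]; simp) f
  rw [hD] at h
  exact sub_eq_zero.mp h

lemma IsPsi.phi_natCast_pow (hL : IsPsi L) (p m : ℕ) : hL.phi ((p : U6) ^ m) = (p : A) ^ m := by
  rw [map_pow, map_natCast]

lemma IsPsi.dvd_of_U6 (hL : IsPsi L) {q : U6} {g : U6[X]} (h : ∀ n : ℕ, q ∣ L6 (g * X ^ n))
    (F : A[X]) : hL.phi q ∣ L (g.map hL.phi * F) := by
  induction F using Polynomial.induction_on' with
  | add F G hF hG => rw [mul_add, map_add]; exact dvd_add hF hG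
  | monomial n a =>
    have h1 : g.map hL.phi * monomial n a = a • ((g * X ^ n).map hL.phi) := by
      rw [← C_mul_X_pow_eq_monomial, smul_eq_C_mul, Polynomial.map_mul, Polynomial.map_pow,
        Polynomial.map_X]
      ring
    rw [h1, map_smul, smul_eq_mul, hL.map_eq]
    exact Dvd.dvd.mul_left (map_dvd _ (h n)) _

variable {p : ℕ} [Fact p.Prime]

/-- **Lemma L** over every commutative ring. -/
theorem IsPsi.lemmaL_gen (hL : IsPsi L) (hp : 5 ≤ p) (k : ℕ) (Q : A[X]) :
    (p : A) ^ (k - 1) ∣ L (theta A p ^ k * Q) := by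
  have h := hL.dvd_of_U6 (q := (p : U6) ^ (k - 1)) (g := theta U6 p ^ k)
    (fun n => isPsi_L6.lemmaL hp (isRes_pi6 hp) k _) Q
  rw [hL.phi_natCast_pow] at h
  have e : (theta U6 p ^ k).map hL.phi = theta A p ^ k := by
    unfold theta
    rw [Polynomial.map_pow, Polynomial.map_prod]
    simp
  rwa [e] at h

theorem IsPsi.dvd_of_mem_gen (hL : IsPsi L) (hp : 5 ≤ p) {k : ℕ} {f : A[X]}
    (hf : f ∈ J A p ^ k) : (p : A) ^ (k - 1) ∣ L f :=
  ideal_bound (fun j _ => hL.lemmaL_gen hp j) f hf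

variable {N : ℕ} {e : ℕ → ℤ[X]}

lemma eA_map {A B : Type*} [CommRing A] [CommRing B] (φ : A →+* B) (e : ℕ → ℤ[X]) (c : ℕ) :
    (eA A e c).map φ = eA B e c := by
  unfold eA
  rw [Polynomial.map_map]
  congr 1
  exact RingHom.ext_int _ _

/-- all classes -/
theorem IsPsi.class_polar (hL : IsPsi L) (hp : 5 ≤ p) (he : IsIdem p N e) {c : ℕ} (hc : c < p)
    (k : ℕ) (F : A[X]) :
    (p : A) ^ (min k N - 1) ∣ L (eA A e c * ((X - C (c : A)) ^ k * F)) := by
  have h := hL.dvd_of_U6 (q := (p : U6) ^ (min k N - 1))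
    (g := eA U6 e c * (X - C (c : U6)) ^ k)
    (fun n => by
      rw [mul_assoc]
      exact isPsi_L6.conc_polar hp (isRes_pi6 hp)
        (he.conc (Fact.out : p.Prime).pos hc k (X ^ n))) F
  rw [hL.phi_natCast_pow, Polynomial.map_mul, eA_map, Polynomial.map_pow, Polynomial.map_sub,
    Polynomial.map_X, map_C, map_natCast, mul_assoc] at h
  exact h

/-- regular classes `p/2 < c < p` -/
theorem IsPsi.class_regular (hL : IsPsi L) (hp : 5 ≤ p) (he : IsIdem p N e) {c : ℕ} (hc : c < p)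
    (hc2 : p < 2 * c) (k : ℕ) (F : A[X]) :
    (p : A) ^ (min (k + 3) N - 1) ∣ L (eA A e c * ((X - C (c : A)) ^ k * F)) := by
  have h := hL.dvd_of_U6 (q := (p : U6) ^ (min (k + 3) N - 1))
    (g := eA U6 e c * (X - C (c : U6)) ^ k)
    (fun n => by
      rw [mul_assoc]
      refine isPsi_L6.conc_regular hp (isRes_pi6 hp) (p - 1 - c) (by omega) _
        (Conc.congr ?_ (he.conc (Fact.out : p.Prime).pos hc k (X ^ n)))
      have : (c : ℤ) - (-((p - 1 - c : ℕ) : ℤ) - 1) = p := by omega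
      rw [this]) F
  rw [hL.phi_natCast_pow, Polynomial.map_mul, eA_map, Polynomial.map_pow, Polynomial.map_sub,
    Polynomial.map_X, map_C, map_natCast, mul_assoc] at h
  exact h

/-- **Class version (L1)**, summary: over every commutative ring `A` and for every `L` with
`IsPsi L`. -/
theorem IsPsi.exists_class (hL : IsPsi L) (hp : 5 ≤ p) (N : ℕ) :
    ∃ e : ℕ → A[X], (∑ c ∈ range p, e c = 1) ∧
      (∀ c < p, ∀ c' < p, c' ≠ c → e c ∈ Jz A p c' ^ N) ∧
      (∀ c < p, e c - 1 ∈ Jz A p c ^ N) ∧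
      (∀ c < p, 2 * c < p → ∀ (k : ℕ) (F : A[X]),
        (p : A) ^ min (k - 1) (N - 1) ∣ L (e c * ((X - C (c : A)) ^ k * F))) ∧
      (∀ c < p, p < 2 * c → ∀ (k : ℕ) (F : A[X]),
        (p : A) ^ min (k + 2) (N - 1) ∣ L (e c * ((X - C (c : A)) ^ k * F))) ∧
      (∀ c, 1 ≤ c → c < p → (e c).comp (X + 1) - e (c - 1) ∈ J A p ^ N) ∧
      ((e 0).comp (X + 1) - e (p - 1) ∈ J A p ^ N) := by
  have hpp : p.Prime := Fact.out
  obtain ⟨e, he⟩ := exists_idem hpp N
  refine ⟨eA A e, he.sumA, ?_, fun c hc => he.onA hc, ?_, ?_, ?_, ?_⟩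
  · intro c hc c' hc' hne
    exact he.offA hpp.pos hc (not_dvd_of_lt hc' hc hne)
  · intro c hc _ k F
    have h := hL.class_polar hp he hc k F
    have e1 : min k N - 1 = min (k - 1) (N - 1) := by omega
    rwa [e1] at h
  · intro c hc hc2 k F
    have h := hL.class_regular hp he hc hc2 k F
    have e1 : min (k + 3) N - 1 = min (k + 2) (N - 1) := by omega
    rwa [e1] at h
  · intro c h1 hc
    refine he.comp_sub hpp hc (by omega) ?_
    have : (c : ℤ) - (((c - 1 : ℕ) : ℤ) + 1) = 0 := by omega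
    rw [this]; exact dvd_zero _
  · refine he.comp_sub hpp hpp.pos (by have := hpp.pos; omega) ?_
    have : ((0 : ℕ) : ℤ) - (((p - 1 : ℕ) : ℤ) + 1) = -p := by
      have := hpp.pos; omega
    rw [this]; exact dvd_neg.mpr (dvd_refl _)

end gen

end Crest.Agent.R6K.P4L
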