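import Mathlib

/-!
# Catalan's constant: `∑ 4^j / ((2j+1)^2 C(2j,j)) = 2 G`

Elementary proof (fundamental theorem of calculus only).
-/

set_option autoImplicit false

open MeasureTheory Set Filter Topology Real

namespace Crest.Agent.R6K.Cat1

/-- Catalan's constant. -/
noncomputable def G : ℝ := ∑' j : ℕ, (-1 : ℝ) ^ j / ((2 * j + 1 : ℝ) ^ 2)

noncomputable def q (x : ℝ) : ℝ := (1 - x ^ 2) / (1 + x ^ 2)

noncomputable def c (n : ℕ) : ℝ := 4 ^ n / ((2 * n + 1) * (Nat.centralBinom n : ℝ))

noncomputable def W (n : ℕ) : ℝ := ∫ x in (0 : ℝ)..1, q x ^ (2 * n + 1) / (1 + x ^ 2)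

noncomputable def rho (n : ℕ) : ℝ := ∫ x in (0 : ℝ)..1, 2 * (arctan x / x) * q x ^ (2 * n)

lemma one_add_sq_pos (x : ℝ) : 0 < 1 + x ^ 2 := by positivity

lemma q_hasDerivAt (x : ℝ) : HasDerivAt q (-(4 * x) / (1 + x ^ 2) ^ 2) x := by
  have h1 : HasDerivAt (fun x : ℝ => 1 - x ^ 2) (-(2 * x)) x := by
    have := (hasDerivAt_pow 2 x).const_sub 1
    simpa using this
  have h2 : HasDerivAt (fun x : ℝ => 1 + x ^ 2) (2 * x) x := by
    have := (hasDerivAt_pow 2 x).const_add 1
    simpa using this
  have h3 := HasDerivAt.fun_div h1 h2 (one_add_sq_pos x).ne'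
  refine HasDerivAt.congr_deriv h3 ?_
  have := (one_add_sq_pos x).ne'
  field_simp
  ring

lemma q_continuous : Continuous q := by
  unfold q
  refine Continuous.div (by fun_prop) (by fun_prop) fun x => (one_add_sq_pos x).ne'

lemma q_zero : q 0 = 1 := by simp [q]

lemma q_one : q 1 = 0 := by simp [q]

lemma q_nonneg {x : ℝ} (hx : x ∈ Icc (0 : ℝ) 1) : 0 ≤ q x := by
  unfold q
  apply div_nonneg _ (one_add_sq_pos x).le
  nlinarith [hx.1, hx.2]

lemma q_le_one (x : ℝ) : q x ≤ 1 := by
  unfold q
  rw [div_le_one (one_add_sq_pos x)]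
  nlinarith [sq_nonneg x]

lemma q_lt_one {x : ℝ} (hx : 0 < x) : q x < 1 := by
  unfold q
  rw [div_lt_one (one_add_sq_pos x)]
  nlinarith [mul_pos hx hx]

lemma c_zero : c 0 = 1 := by simp [c]

lemma cb_pos (n : ℕ) : (0 : ℝ) < Nat.centralBinom n := by
  exact_mod_cast Nat.centralBinom_pos n

lemma cb_succ (n : ℕ) : ((n : ℝ) + 1) * Nat.centralBinom (n + 1) = 2 * (2 * n + 1) * Nat.centralBinom n := by
  exact_mod_cast Nat.succ_mul_centralBinom_succ n

lemma c_succ (n : ℕ) : (2 * (n : ℝ) + 3) * c (n + 1) = (2 * n + 2) * c n := by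
  unfold c
  have h1 := cb_succ n
  have h2 := cb_pos n
  have h3 := cb_pos (n + 1)
  have h4 : (Nat.centralBinom (n + 1) : ℝ) = 2 * (2 * n + 1) * Nat.centralBinom n / (n + 1) := by
    field_simp
    linarith
  rw [h4]
  push_cast
  have : (2 : ℝ) * n + 1 ≠ 0 := by positivity
  have : (2 : ℝ) * (n + 1) + 1 ≠ 0 := by positivity
  field_simp
  ring

lemma W_zero : W 0 = 1 / 2 := by
  unfold W
  have h : ∀ x ∈ uIcc (0 : ℝ) 1, HasDerivAt (fun x : ℝ => x / (1 + x ^ 2))
      (q x ^ (2 * 0 + 1) / (1 + x ^ 2)) x := by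
    intro x _
    have h2 : HasDerivAt (fun x : ℝ => 1 + x ^ 2) (2 * x) x := by
      have := (hasDerivAt_pow 2 x).const_add 1
      simpa using this
    have h3 := HasDerivAt.fun_div (hasDerivAt_id' x) h2 (one_add_sq_pos x).ne'
    refine HasDerivAt.congr_deriv h3 ?_
    have := (one_add_sq_pos x).ne'
    simp only [q, mul_zero, zero_add, pow_one]
    field_simp
    try ring
  rw [intervalIntegral.integral_eq_sub_of_hasDerivAt h]
  · norm_num
  · apply Continuous.intervalIntegrable
    exact (q_continuous.pow _).div (by fun_prop) fun x => (one_add_sq_pos x).ne'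

lemma W_succ (n : ℕ) : (2 * (n : ℝ) + 3) * W (n + 1) = (2 * n + 2) * W n := by
  have hc : ∀ m : ℕ, Continuous fun x : ℝ => q x ^ m / (1 + x ^ 2) := fun m =>
    (q_continuous.pow _).div (by fun_prop) fun x => (one_add_sq_pos x).ne'
  have h : ∀ x ∈ uIcc (0 : ℝ) 1, HasDerivAt (fun x : ℝ => x / (1 + x ^ 2) * q x ^ (2 * (n + 1)))
      ((2 * n + 3) * (q x ^ (2 * (n + 1) + 1) / (1 + x ^ 2))
        - (2 * n + 2) * (q x ^ (2 * n + 1) / (1 + x ^ 2))) x := by
    intro x _
    have h2 : HasDerivAt (fun x : ℝ => 1 + x ^ 2) (2 * x) x := by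
      have := (hasDerivAt_pow 2 x).const_add 1
      simpa using this
    have h3 := HasDerivAt.fun_div (hasDerivAt_id' x) h2 (one_add_sq_pos x).ne'
    have h4 := HasDerivAt.fun_pow (q_hasDerivAt x) (2 * (n + 1))
    have h5 := HasDerivAt.fun_mul h3 h4
    refine HasDerivAt.congr_deriv h5 ?_
    have := (one_add_sq_pos x).ne'
    have e1 : 2 * (n + 1) - 1 = 2 * n + 1 := by omega
    rw [e1]
    have e2 : q x ^ (2 * (n + 1) + 1) = q x ^ (2 * n + 1) * q x ^ 2 := by ring
    have e3 : q x ^ (2 * (n + 1)) = q x ^ (2 * n + 1) * q x := by ring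
    rw [e2, e3]
    generalize q x ^ (2 * n + 1) = Q
    simp only [q]
    push_cast
    field_simp
    ring
  have h6 := intervalIntegral.integral_eq_sub_of_hasDerivAt h (by
    apply Continuous.intervalIntegrable
    exact (continuous_const.mul (hc _)).sub (continuous_const.mul (hc _)))
  rw [intervalIntegral.integral_sub, intervalIntegral.integral_const_mul,
    intervalIntegral.integral_const_mul] at h6
  · have : (0 : ℝ) ^ (2 * (n + 1)) = 0 := by
      apply zero_pow; omega
    simp only [q_one, this] at h6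
    unfold W
    norm_num at h6
    linarith
  · exact (continuous_const.mul (hc _)).intervalIntegrable _ _
  · exact (continuous_const.mul (hc _)).intervalIntegrable _ _

lemma W_eq (n : ℕ) : W n = c n / 2 := by
  induction n with
  | zero => rw [W_zero, c_zero]
  | succ n ih =>
    have h1 := W_succ n
    have h2 := c_succ n
    have h3 : (2 * (n : ℝ) + 3) ≠ 0 := by positivity
    apply mul_left_cancel₀ h3
    rw [h1, ih]
    linarith

lemma arctan_div_bound {x : ℝ} (hx : 0 < x) : 0 ≤ arctan x / x ∧ arctan x / x ≤ 1 := by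
  have h1 : 0 < arctan x := arctan_pos.mpr hx
  refine ⟨by positivity, ?_⟩
  rw [div_le_one hx]
  have h2 := Real.lt_tan h1 (arctan_lt_pi_div_two x)
  rw [tan_arctan] at h2
  exact h2.le

lemma integrable_aux (f : ℝ → ℝ) (hf : Continuous f) :
    IntervalIntegrable (fun x => 2 * (arctan x / x) * f x) volume 0 1 := by
  have h1 : IntervalIntegrable (fun x : ℝ => 2 * (arctan x / x)) volume 0 1 := by
    rw [intervalIntegrable_iff_integrableOn_Ioc_of_le zero_le_one]
    refine Measure.integrableOn_of_bounded (M := 2) (by simp) ?_ ?_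
    · exact ((measurable_arctan.div measurable_id).const_mul 2).aestronglyMeasurable
    · rw [ae_restrict_iff' measurableSet_Ioc]
      refine Eventually.of_forall fun x hx => ?_
      have := arctan_div_bound hx.1
      rw [Real.norm_eq_abs, abs_of_nonneg (by linarith [this.1])]
      linarith [this.2]
  exact h1.mul_continuousOn hf.continuousOn

lemma rho_sub (n : ℕ) : rho n - rho (n + 1) = c n / (2 * n + 1) := by
  have hc : ∀ m : ℕ, Continuous fun x : ℝ => q x ^ m / (1 + x ^ 2) := fun m =>
    (q_continuous.pow _).div (by fun_prop) fun x => (one_add_sq_pos x).ne'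
  have h : ∀ x ∈ uIcc (0 : ℝ) 1, HasDerivAt (fun x : ℝ => arctan x * q x ^ (2 * n + 1))
      (q x ^ (2 * n + 1) / (1 + x ^ 2)
        - (2 * n + 1) * (arctan x * q x ^ (2 * n) * ((4 * x) / (1 + x ^ 2) ^ 2))) x := by
    intro x _
    have h3 := HasDerivAt.fun_mul (hasDerivAt_arctan x) (HasDerivAt.fun_pow (q_hasDerivAt x) (2 * n + 1))
    refine HasDerivAt.congr_deriv h3 ?_
    have := (one_add_sq_pos x).ne'
    have e1 : 2 * n + 1 - 1 = 2 * n := by omega
    rw [e1]
    push_cast
    field_simp
    ring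
  have h6 := intervalIntegral.integral_eq_sub_of_hasDerivAt h (by
    apply Continuous.intervalIntegrable
    refine (hc _).sub (continuous_const.mul ?_)
    refine (continuous_arctan.mul (q_continuous.pow _)).mul ?_
    exact Continuous.div (by fun_prop) (by fun_prop) fun x => by
      have := one_add_sq_pos x; positivity)
  have hc2 : Continuous fun x : ℝ => (2 * (n : ℝ) + 1) *
      (arctan x * q x ^ (2 * n) * ((4 * x) / (1 + x ^ 2) ^ 2)) := by
    refine continuous_const.mul ((continuous_arctan.mul (q_continuous.pow _)).mul ?_)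
    exact Continuous.div (by fun_prop) (by fun_prop) fun x => by
      have := one_add_sq_pos x; positivity
  rw [intervalIntegral.integral_sub ((hc _).intervalIntegrable _ _) (hc2.intervalIntegrable _ _),
    intervalIntegral.integral_const_mul] at h6
  have h7 : (0 : ℝ) ^ (2 * n + 1) = 0 := by
    apply zero_pow; omega
  rw [q_one, h7, arctan_zero] at h6
  have h8 : rho n - rho (n + 1)
      = 2 * ∫ x in (0 : ℝ)..1, arctan x * q x ^ (2 * n) * ((4 * x) / (1 + x ^ 2) ^ 2) := by
    unfold rho
    rw [← intervalIntegral.integral_sub (integrable_aux (fun x => q x ^ (2 * n)) (q_continuous.pow _))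
      (integrable_aux (fun x => q x ^ (2 * (n + 1))) (q_continuous.pow _)),
      ← intervalIntegral.integral_const_mul]
    apply intervalIntegral.integral_congr
    intro x _
    rcases eq_or_ne x 0 with rfl | hx
    · simp
    · have := (one_add_sq_pos x).ne'
      have e3 : q x ^ (2 * (n + 1)) = q x ^ (2 * n) * q x ^ 2 := by ring
      simp only
      rw [e3]
      generalize q x ^ (2 * n) = Q
      simp only [q]
      field_simp
      ring
  have h9 : W n = ∫ x in (0 : ℝ)..1, q x ^ (2 * n + 1) / (1 + x ^ 2) := rfl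
  rw [← h9, W_eq] at h6
  rw [h8]
  have : (2 * (n : ℝ) + 1) ≠ 0 := by positivity
  rw [eq_div_iff this]
  simp only [mul_zero, sub_self, zero_mul] at h6
  linarith

lemma rho_tendsto : Tendsto rho atTop (𝓝 0) := by
  have h : Tendsto (fun n : ℕ => ∫ x in Ioc (0 : ℝ) 1, 2 * (arctan x / x) * q x ^ (2 * n)) atTop
      (𝓝 (∫ x in Ioc (0 : ℝ) 1, (0 : ℝ))) := by
    apply tendsto_integral_of_dominated_convergence (fun _ => (2 : ℝ))
    · intro n
      exact (((measurable_arctan.div measurable_id).const_mul 2).mul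
        (q_continuous.measurable.pow_const _)).aestronglyMeasurable
    · exact integrableOn_const (by simp)
    · intro n
      rw [ae_restrict_iff' measurableSet_Ioc]
      refine Eventually.of_forall fun x hx => ?_
      have h1 := arctan_div_bound hx.1
      have h2 := q_nonneg (x := x) ⟨hx.1.le, hx.2⟩
      have h3 := pow_le_one₀ (n := 2 * n) h2 (q_le_one x)
      have h4 := pow_nonneg h2 (2 * n)
      rw [Real.norm_eq_abs, abs_of_nonneg (mul_nonneg (by linarith [h1.1]) h4)]
      nlinarith [h1.1, h1.2]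
    · rw [ae_restrict_iff' measurableSet_Ioc]
      refine Eventually.of_forall fun x hx => ?_
      have h2 := q_nonneg (x := x) ⟨hx.1.le, hx.2⟩
      have h5 : Tendsto (fun n : ℕ => q x ^ (2 * n)) atTop (𝓝 0) := by
        have := tendsto_pow_atTop_nhds_zero_of_lt_one (r := q x ^ 2) (by positivity)
          (by nlinarith [q_lt_one hx.1])
        simpa [pow_mul] using this
      simpa using h5.const_mul (2 * (arctan x / x))
  simp only [integral_zero] at h
  refine h.congr fun n => ?_
  unfold rho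
  rw [intervalIntegral.integral_of_le zero_le_one]

lemma summable_G : Summable fun j : ℕ => (-1 : ℝ) ^ j / ((2 * j + 1 : ℝ) ^ 2) := by
  have h : Summable fun j : ℕ => 1 / ((2 * j + 1 : ℝ) ^ 2) := by
    have h1 : Summable fun j : ℕ => 1 / ((j : ℝ) + 1) ^ 2 := by
      have := (summable_nat_add_iff 1).mpr (Real.summable_one_div_nat_pow.mpr (by norm_num : 1 < 2))
      simpa using this
    refine Summable.of_nonneg_of_le (fun j => by positivity) (fun j => ?_) h1
    apply one_div_le_one_div_of_le (by positivity)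
    have : (0 : ℝ) ≤ j := by positivity
    nlinarith
  refine Summable.of_norm_bounded h fun j => ?_
  rw [norm_div, norm_pow, norm_neg, norm_one, one_pow, Real.norm_eq_abs,
    abs_of_nonneg (by positivity : (0 : ℝ) ≤ (2 * j + 1) ^ 2)]

lemma rho_zero : rho 0 = 2 * G := by
  let F : ℕ → ℝ → ℝ := fun n x => 2 * ((-1) ^ n * x ^ (2 * n) / (2 * n + 1))
  have hFc : ∀ n, Continuous (F n) := fun n => by
    simp only [F]
    fun_prop
  have hI : ∀ n, IntegrableOn (F n) (Ioo (0 : ℝ) 1) := fun n =>
    ((hFc n).integrableOn_Icc (a := 0) (b := 1)).mono_set Ioo_subset_Icc_self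
  have hint : ∀ n : ℕ, ∫ x in Ioo (0 : ℝ) 1, x ^ (2 * n) = 1 / (2 * n + 1) := by
    intro n
    rw [← integral_Ioc_eq_integral_Ioo, ← intervalIntegral.integral_of_le zero_le_one]
    rw [integral_pow]
    simp
  have hnorm : ∀ n, ∫ x in Ioo (0 : ℝ) 1, ‖F n x‖ = 2 / (2 * n + 1) ^ 2 := by
    intro n
    have : ∀ x ∈ Ioo (0 : ℝ) 1, ‖F n x‖ = (2 / (2 * n + 1)) * x ^ (2 * n) := by
      intro x hx
      have h0 : (0 : ℝ) ≤ x ^ (2 * n) := pow_nonneg hx.1.le _
      simp only [F, norm_mul, norm_div, norm_pow, norm_neg, norm_one, one_pow, one_mul,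
        Real.norm_eq_abs, abs_of_nonneg hx.1.le]
      rw [abs_of_nonneg (by positivity : (0 : ℝ) ≤ 2 * n + 1), abs_of_pos (by norm_num : (0 : ℝ) < 2)]
      ring
    rw [setIntegral_congr_fun measurableSet_Ioo this, integral_const_mul, hint]
    have : (2 * (n : ℝ) + 1) ≠ 0 := by positivity
    field_simp
  have hsum : Summable fun n => ∫ x in Ioo (0 : ℝ) 1, ‖F n x‖ := by
    simp only [hnorm]
    have := summable_G.norm.mul_left 2
    refine this.congr fun n => ?_
    rw [norm_div, norm_pow, norm_neg, norm_one, one_pow, Real.norm_eq_abs,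
      abs_of_nonneg (by positivity : (0 : ℝ) ≤ (2 * n + 1) ^ 2)]
    ring
  have key := hasSum_integral_of_summable_integral_norm hI hsum
  have h1 : ∀ n, ∫ x in Ioo (0 : ℝ) 1, F n x = 2 * ((-1 : ℝ) ^ n / ((2 * n + 1 : ℝ) ^ 2)) := by
    intro n
    have : ∀ x, F n x = (2 * ((-1) ^ n / (2 * n + 1))) * x ^ (2 * n) := by
      intro x; simp only [F]; ring
    simp only [this]
    rw [integral_const_mul, hint]
    have : (2 * (n : ℝ) + 1) ≠ 0 := by positivity
    field_simp
  simp only [h1] at key
  have h2 : ∫ x in Ioo (0 : ℝ) 1, ∑' n, F n x = rho 0 := by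
    unfold rho
    rw [intervalIntegral.integral_of_le zero_le_one, integral_Ioc_eq_integral_Ioo]
    apply setIntegral_congr_fun measurableSet_Ioo
    intro x hx
    have h3 := Real.hasSum_arctan (x := x) (by
      rw [Real.norm_eq_abs, abs_of_nonneg hx.1.le]; exact hx.2)
    have h4 := h3.mul_left (2 / x)
    have h5 : (fun n : ℕ => 2 / x * ((-1) ^ n * x ^ (2 * n + 1) / ↑(2 * n + 1))) = fun n => F n x := by
      funext n
      simp only [F]
      have : x ≠ 0 := hx.1.ne'
      push_cast
      have : (2 * (n : ℝ) + 1) ≠ 0 := by positivity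
      field_simp
      ring
    rw [h5] at h4
    simp only
    rw [h4.tsum_eq]
    simp
    ring
  rw [h2] at key
  have h3 := (summable_G.hasSum).mul_left 2
  exact key.unique h3

/-- `∑ 4^j/((2j+1)^2 C(2j,j)) = 2G`. -/
theorem hasSum_c : HasSum (fun j : ℕ => c j / (2 * j + 1)) (2 * G) := by
  have hnn : ∀ j : ℕ, 0 ≤ c j / (2 * j + 1) := fun j => by
    unfold c
    have := cb_pos j
    positivity
  rw [hasSum_iff_tendsto_nat_of_nonneg hnn]
  have h : ∀ n, ∑ i ∈ Finset.range n, c i / (2 * i + 1) = rho 0 - rho n := by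
    intro n
    induction n with
    | zero => simp
    | succ n ih =>
      rw [Finset.sum_range_succ, ih, ← rho_sub]
      ring
  simp only [h]
  have := rho_tendsto.const_sub (rho 0)
  rw [sub_zero, rho_zero] at this
  rwa [rho_zero]

theorem hasSum_four_pow : HasSum (fun j : ℕ => (4 : ℝ) ^ j / ((2 * j + 1) ^ 2 * Nat.centralBinom j))
    (2 * G) := by
  refine hasSum_c.congr_fun ?_ |> fun h => h
  intro j
  unfold c
  have := cb_pos j
  have : (2 * (j : ℝ) + 1) ≠ 0 := by positivity
  field_simp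

end Crest.Agent.R6K.Cat1
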