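import Mathlib
import Crest.Agent.R6K.Cat1_630

/-!
# The K3(-8) series for Catalan's constant

WZ pair `F (n,j) = 1/((n+j+1/2)^2 H(n,j))`, `R = (3n+2j+2)/(2n+1) F`:
`F(n,j) - F(n+1,j) = R(n,j) - R(n,j+1)`.
-/

set_option autoImplicit false

open Filter Topology Finset

namespace Crest.Agent.R6K.WZ

open Crest.Agent.R6K.Cat1

/-- `g m = (1/2)_m = (2m)!/(4^m m!)`. -/
noncomputable def g : ℕ → ℝ
  | 0 => 1
  | m + 1 => ((m : ℝ) + 1 / 2) * g m

lemma g_pos (m : ℕ) : 0 < g m := by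
  induction m with
  | zero => simp [g]
  | succ m ih => simp only [g]; positivity

/-- `(-8)^n 4^j (1/2)_{n+j}^2 (1/2)_n / ((n+2j)! n!^2)`. -/
noncomputable def H (n j : ℕ) : ℝ :=
  (-8) ^ n * 4 ^ j * g (n + j) ^ 2 * g n / ((n + 2 * j).factorial * (n.factorial : ℝ) ^ 2)

lemma H_ne (n j : ℕ) : H n j ≠ 0 := by
  unfold H
  have h1 := (g_pos (n + j)).ne'
  have h2 := (g_pos n).ne'
  have h3 : ((n + 2 * j).factorial : ℝ) ≠ 0 := by exact_mod_cast Nat.factorial_ne_zero _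
  have h4 : (n.factorial : ℝ) ≠ 0 := by exact_mod_cast Nat.factorial_ne_zero _
  have h5 : ((-8 : ℝ)) ^ n ≠ 0 := pow_ne_zero _ (by norm_num)
  positivity

lemma H_succ_left (n j : ℕ) :
    H (n + 1) j * ((n + 1 + 2 * j) * (n + 1) ^ 2)
      = -8 * (n + j + 1 / 2) ^ 2 * (n + 1 / 2) * H n j := by
  unfold H
  have e1 : n + 1 + j = (n + j) + 1 := by ring
  have e2 : n + 1 + 2 * j = (n + 2 * j) + 1 := by ring
  rw [e1, e2, Nat.factorial_succ, Nat.factorial_succ]
  simp only [g]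
  have h3 : ((n + 2 * j).factorial : ℝ) ≠ 0 := by exact_mod_cast Nat.factorial_ne_zero _
  have h4 : (n.factorial : ℝ) ≠ 0 := by exact_mod_cast Nat.factorial_ne_zero _
  have h6 : (n : ℝ) + 2 * j + 1 ≠ 0 := by positivity
  have h7 : (n : ℝ) + 1 ≠ 0 := by positivity
  push_cast
  field_simp
  ring

lemma H_succ_right (n j : ℕ) :
    H n (j + 1) * ((n + 1 + 2 * j) * (n + 2 + 2 * j))
      = 4 * (n + j + 1 / 2) ^ 2 * H n j := by
  unfold H
  have e1 : n + (j + 1) = (n + j) + 1 := by ring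
  have e2 : n + 2 * (j + 1) = ((n + 2 * j) + 1) + 1 := by ring
  rw [e1, e2, Nat.factorial_succ, Nat.factorial_succ]
  simp only [g]
  have h3 : ((n + 2 * j).factorial : ℝ) ≠ 0 := by exact_mod_cast Nat.factorial_ne_zero _
  have h4 : (n.factorial : ℝ) ≠ 0 := by exact_mod_cast Nat.factorial_ne_zero _
  have h6 : (n : ℝ) + 2 * j + 1 ≠ 0 := by positivity
  have h7 : (n : ℝ) + 2 * j + 1 + 1 ≠ 0 := by positivity
  push_cast
  field_simp
  ring

noncomputable def F (n j : ℕ) : ℝ := 1 / ((n + j + 1 / 2) ^ 2 * H n j)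

noncomputable def R (n j : ℕ) : ℝ := (3 * n + 2 * j + 2) / (2 * n + 1) * F n j

lemma F_succ_left (n j : ℕ) :
    F (n + 1) j = - ((n + 1 + 2 * j) * (n + 1) ^ 2 / (8 * (n + j + 3 / 2) ^ 2 * (n + 1 / 2))) * F n j := by
  unfold F
  have h := H_succ_left n j
  have h1 := H_ne n j
  have h2 := H_ne (n + 1) j
  have h3 : (n : ℝ) + j + 1 / 2 ≠ 0 := by positivity
  have h4 : (n : ℝ) + j + 3 / 2 ≠ 0 := by positivity
  have h5 : (n : ℝ) + 1 / 2 ≠ 0 := by positivity
  have h6 : (n : ℝ) + 1 + 2 * j ≠ 0 := by positivity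
  have h7 : (n : ℝ) + 1 ≠ 0 := by positivity
  have e : H (n + 1) j = -8 * (n + j + 1 / 2) ^ 2 * (n + 1 / 2) * H n j / ((n + 1 + 2 * j) * (n + 1) ^ 2) := by
    rw [eq_div_iff (by positivity)]; exact h
  rw [e]
  push_cast
  have e3 : ((n : ℝ) + 1 + j + 1 / 2) = n + j + 3 / 2 := by ring
  rw [e3]
  field_simp

lemma F_succ_right (n j : ℕ) :
    F n (j + 1) = (n + 1 + 2 * j) * (n + 2 + 2 * j) / (4 * (n + j + 3 / 2) ^ 2) * F n j := by
  unfold F
  have h := H_succ_right n j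
  have h1 := H_ne n j
  have h3 : (n : ℝ) + j + 1 / 2 ≠ 0 := by positivity
  have h4 : (n : ℝ) + j + 3 / 2 ≠ 0 := by positivity
  have h6 : (n : ℝ) + 1 + 2 * j ≠ 0 := by positivity
  have h7 : (n : ℝ) + 2 + 2 * j ≠ 0 := by positivity
  have e : H n (j + 1) = 4 * (n + j + 1 / 2) ^ 2 * H n j / ((n + 1 + 2 * j) * (n + 2 + 2 * j)) := by
    rw [eq_div_iff (by positivity)]; exact h
  rw [e]
  push_cast
  have e3 : ((n : ℝ) + (j + 1) + 1 / 2) = n + j + 3 / 2 := by ring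
  rw [e3]
  field_simp

theorem wz (n j : ℕ) : F n j - F (n + 1) j = R n j - R n (j + 1) := by
  unfold R
  rw [F_succ_left, F_succ_right]
  have h4 : (n : ℝ) + j + 3 / 2 ≠ 0 := by positivity
  have h5 : (n : ℝ) + 1 / 2 ≠ 0 := by positivity
  have h8 : 2 * (n : ℝ) + 1 ≠ 0 := by positivity
  generalize F n j = f
  have h9 : 8 * ((n : ℝ) + 1 / 2) = 4 * (2 * n + 1) := by ring
  have h10 : 8 * ((n : ℝ) + j + 3 / 2) ^ 2 * (n + 1 / 2) = 4 * (n + j + 3 / 2) ^ 2 * (2 * n + 1) := by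
    ring
  rw [h10]
  push_cast
  field_simp
  ring

lemma F_zero (j : ℕ) : F 0 j = 4 * (c j / (2 * j + 1)) := by
  induction j with
  | zero => simp [F, H, g, c_zero]; norm_num
  | succ j ih =>
    rw [F_succ_right, ih]
    have h := c_succ j
    have h1 : 2 * (j : ℝ) + 3 ≠ 0 := by positivity
    have h2 : c (j + 1) = (2 * j + 2) * c j / (2 * j + 3) := by
      rw [eq_div_iff h1]; linarith
    rw [h2]
    push_cast
    have h3 : 2 * (j : ℝ) + 1 ≠ 0 := by positivity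
    have h4 : (0 : ℝ) + j + 3 / 2 ≠ 0 := by positivity
    have h5 : 2 * ((j : ℝ) + 1) + 1 ≠ 0 := by positivity
    have e : (0 : ℝ) + j + 3 / 2 = (2 * j + 3) / 2 := by ring
    rw [e]
    field_simp
    ring

lemma c_pos (j : ℕ) : 0 < c j := by
  unfold c
  have := cb_pos j
  positivity

lemma F_zero_pos (j : ℕ) : 0 < F 0 j := by
  rw [F_zero]
  have := c_pos j
  positivity

lemma abs_F_succ_le (n j : ℕ) : |F (n + 1) j| ≤ 1 / 3 * |F n j| := by
  rw [F_succ_left, abs_mul, abs_neg]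
  apply mul_le_mul_of_nonneg_right _ (abs_nonneg _)
  rw [abs_of_nonneg (by positivity)]
  rw [div_le_div_iff₀ (by positivity) (by norm_num)]
  have hn : (0 : ℝ) ≤ n := by positivity
  have hj : (0 : ℝ) ≤ j := by positivity
  have h1 : ((n : ℝ) + 1 + 2 * j) * (n + 1) ^ 2 * 3 ≤ 2 * (n + j + 3 / 2) * (n + 1) ^ 2 * 3 := by
    have : ((n : ℝ) + 1 + 2 * j) ≤ 2 * (n + j + 3 / 2) := by linarith
    have h0 : (0 : ℝ) ≤ (n + 1) ^ 2 := by positivity
    nlinarith
  have h2 : 2 * ((n : ℝ) + j + 3 / 2) * (n + 1) ^ 2 * 3 ≤ 8 * (n + j + 3 / 2) * (n + 3 / 2) * (n + 1 / 2) := by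
    have h3 : 3 * ((n : ℝ) + 1) ^ 2 ≤ 4 * ((n + 3 / 2) * (n + 1 / 2)) := by nlinarith
    have h4 : (0 : ℝ) ≤ 2 * (n + j + 3 / 2) := by positivity
    nlinarith [mul_le_mul_of_nonneg_left h3 h4]
  have h5 : 8 * ((n : ℝ) + j + 3 / 2) * (n + 3 / 2) * (n + 1 / 2) ≤ 1 * (8 * (n + j + 3 / 2) ^ 2 * (n + 1 / 2)) := by
    have h6 : (n : ℝ) + 3 / 2 ≤ n + j + 3 / 2 := by linarith
    have h7 : (0 : ℝ) ≤ 8 * (n + j + 3 / 2) * (n + 1 / 2) := by positivity
    nlinarith [mul_le_mul_of_nonneg_left h6 h7]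
  linarith

lemma abs_F_le (n j : ℕ) : |F n j| ≤ (1 / 3) ^ n * F 0 j := by
  induction n with
  | zero => simp [abs_of_pos (F_zero_pos j)]
  | succ n ih =>
    refine (abs_F_succ_le n j).trans ?_
    rw [pow_succ]
    nlinarith

lemma hasSum_F_zero : HasSum (fun j => F 0 j) (8 * G) := by
  have h := hasSum_c.mul_left 4
  have e : (4 : ℝ) * (2 * G) = 8 * G := by ring
  rw [e] at h
  exact h.congr_fun fun j => F_zero j

lemma summable_F (n : ℕ) : Summable fun j => F n j := by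
  refine Summable.of_norm_bounded (hasSum_F_zero.summable.mul_left ((1 / 3) ^ n)) fun j => ?_
  rw [Real.norm_eq_abs]
  exact abs_F_le n j

noncomputable def A (n : ℕ) : ℝ := ∑' j, F n j

lemma G_pos : 0 < G := by
  have h := hasSum_c
  have : 0 < 2 * G := by
    rw [← h.tsum_eq]
    exact h.summable.tsum_pos (fun j => (by have := c_pos j; positivity)) 0 (by simp [c_zero])
  linarith

lemma abs_A_le (n : ℕ) : |A n| ≤ (1 / 3) ^ n * (8 * G) := by
  unfold A
  rw [← Real.norm_eq_abs]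
  refine (norm_tsum_le_tsum_norm (summable_F n).norm).trans ?_
  rw [← hasSum_F_zero.tsum_eq, ← tsum_mul_left]
  refine Summable.tsum_le_tsum (fun j => ?_) (summable_F n).norm (hasSum_F_zero.summable.mul_left _)
  rw [Real.norm_eq_abs]
  exact abs_F_le n j

lemma c_sq_le (j : ℕ) : c j ^ 2 ≤ 1 / (j + 1) := by
  induction j with
  | zero => simp [c_zero]
  | succ j ih =>
    have h := c_succ j
    have h1 : 2 * (j : ℝ) + 3 ≠ 0 := by positivity
    have h2 : c (j + 1) = (2 * j + 2) * c j / (2 * j + 3) := by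
      rw [eq_div_iff h1]; linarith
    rw [h2, div_pow, mul_pow]
    have h3 : (2 * (j : ℝ) + 2) ^ 2 * c j ^ 2 / (2 * j + 3) ^ 2 ≤ (2 * (j : ℝ) + 2) ^ 2 * (1 / (j + 1)) / (2 * j + 3) ^ 2 := by
      gcongr
    refine h3.trans ?_
    push_cast
    have hj : (0 : ℝ) ≤ j := by positivity
    have e : (2 * (j : ℝ) + 2) ^ 2 * (1 / (j + 1)) / (2 * j + 3) ^ 2 = 4 * (j + 1) / (2 * j + 3) ^ 2 := by
      have : (j : ℝ) + 1 ≠ 0 := by positivity
      field_simp
      ring
    rw [e, div_le_div_iff₀ (by positivity) (by positivity)]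
    nlinarith

lemma c_tendsto : Tendsto c atTop (𝓝 0) := by
  have h : Tendsto (fun j : ℕ => c j ^ 2) atTop (𝓝 0) := by
    refine squeeze_zero (fun j => by positivity) c_sq_le ?_
    exact tendsto_one_div_add_atTop_nhds_zero_nat
  have h2 : Tendsto (fun j : ℕ => Real.sqrt (c j ^ 2)) atTop (𝓝 (Real.sqrt 0)) :=
    (Real.continuous_sqrt.tendsto 0).comp h
  rw [Real.sqrt_zero] at h2
  refine h2.congr fun j => ?_
  rw [Real.sqrt_sq (c_pos j).le]

lemma R_tendsto (n : ℕ) : Tendsto (fun j => R n j) atTop (𝓝 0) := by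
  have hb : ∀ j : ℕ, |R n j| ≤ (4 * (3 * n + 2)) * c j := by
    intro j
    unfold R
    rw [abs_mul, abs_of_nonneg (by positivity)]
    have h1 := abs_F_le n j
    rw [F_zero] at h1
    have h2 : ((1 : ℝ) / 3) ^ n ≤ 1 := pow_le_one₀ (by norm_num) (by norm_num)
    have hc := c_pos j
    have h3 : |F n j| ≤ 4 * (c j / (2 * j + 1)) := by
      refine h1.trans ?_
      have : 0 ≤ 4 * (c j / (2 * j + 1)) := by positivity
      nlinarith
    have h4 : (3 * (n : ℝ) + 2 * j + 2) / (2 * n + 1) ≤ (3 * n + 2) * (2 * j + 1) := by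
      rw [div_le_iff₀ (by positivity)]
      have hn : (0 : ℝ) ≤ n := by positivity
      have hj : (0 : ℝ) ≤ j := by positivity
      nlinarith [mul_nonneg hn hj, mul_nonneg (mul_nonneg hn hn) hj, mul_nonneg hn hn]
    calc (3 * (n : ℝ) + 2 * j + 2) / (2 * n + 1) * |F n j|
        ≤ ((3 * n + 2) * (2 * j + 1)) * (4 * (c j / (2 * j + 1))) := by gcongr
      _ = (4 * (3 * n + 2)) * c j := by
        have : 2 * (j : ℝ) + 1 ≠ 0 := by positivity
        field_simp
  rw [tendsto_zero_iff_abs_tendsto_zero]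
  refine squeeze_zero (fun j => abs_nonneg _) hb ?_
  simpa using c_tendsto.const_mul (4 * (3 * (n : ℝ) + 2))

lemma A_sub (n : ℕ) : A n - A (n + 1) = R n 0 := by
  have h1 : Tendsto (fun J => ∑ j ∈ range J, (F n j - F (n + 1) j)) atTop (𝓝 (A n - A (n + 1))) := by
    have := ((summable_F n).hasSum.sub (summable_F (n + 1)).hasSum).tendsto_sum_nat
    simpa [A] using this
  have h2 : ∀ J, ∑ j ∈ range J, (F n j - F (n + 1) j) = R n 0 - R n J := by
    intro J
    induction J with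
    | zero => simp
    | succ J ih =>
      rw [sum_range_succ, ih, wz]
      ring
  simp only [h2] at h1
  have h3 := (R_tendsto n).const_sub (R n 0)
  rw [sub_zero] at h3
  exact tendsto_nhds_unique h1 h3

lemma A_zero : A 0 = 8 * G := hasSum_F_zero.tsum_eq

lemma sum_R (N : ℕ) : ∑ n ∈ range N, R n 0 = 8 * G - A N := by
  induction N with
  | zero => simp [A_zero]
  | succ N ih =>
    rw [sum_range_succ, ih, ← A_sub]
    ring

/-- The homogeneous solution `h n = C(2n,n)^3 / (-8)^n`. -/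
noncomputable def h (n : ℕ) : ℝ := (Nat.centralBinom n : ℝ) ^ 3 / (-8) ^ n

lemma g_eq (n : ℕ) : g n = Nat.centralBinom n * n.factorial / 4 ^ n := by
  induction n with
  | zero => simp [g]
  | succ n ih =>
    simp only [g]
    rw [ih, Nat.factorial_succ]
    have h1 := cb_succ n
    have h4 : (Nat.centralBinom (n + 1) : ℝ) = 2 * (2 * n + 1) * Nat.centralBinom n / (n + 1) := by
      field_simp
      linarith
    rw [h4]
    push_cast
    field_simp
    ring

lemma H_zero (n : ℕ) : H n 0 = h n := by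
  unfold H h
  rw [add_zero, g_eq]
  have h4 : (n.factorial : ℝ) ≠ 0 := by exact_mod_cast Nat.factorial_ne_zero _
  have h8 : ((-8 : ℝ)) ^ n ≠ 0 := pow_ne_zero _ (by norm_num)
  have h9 : ((-8 : ℝ)) ^ n * (-8) ^ n = 4 ^ n * 4 ^ n * 4 ^ n := by
    rw [← mul_pow, ← mul_pow, ← mul_pow]; norm_num
  simp only [mul_zero, add_zero, pow_zero, mul_one]
  field_simp
  linear_combination (Nat.centralBinom n : ℝ) ^ 3 * h9

lemma h_ne (n : ℕ) : h n ≠ 0 := by
  rw [← H_zero]; exact H_ne n 0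

lemma h_succ (n : ℕ) : ((n : ℝ) + 1) ^ 3 * h (n + 1) = -(2 * n + 1) ^ 3 * h n := by
  unfold h
  have h1 := cb_succ n
  have h4 : (Nat.centralBinom (n + 1) : ℝ) = 2 * (2 * n + 1) * Nat.centralBinom n / (n + 1) := by
    field_simp
    linarith
  rw [h4, pow_succ (-8 : ℝ) n]
  have h8 : ((-8 : ℝ)) ^ n ≠ 0 := pow_ne_zero _ (by norm_num)
  have : (n : ℝ) + 1 ≠ 0 := by positivity
  field_simp
  ring

lemma R_zero (n : ℕ) : R n 0 = 4 * (3 * n + 2) / ((2 * n + 1) ^ 3 * h n) := by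
  unfold R F
  rw [H_zero]
  have := h_ne n
  have h1 : 2 * (n : ℝ) + 1 ≠ 0 := by positivity
  push_cast
  have e : (n : ℝ) + 0 + 1 / 2 = (2 * n + 1) / 2 := by ring
  rw [e]
  field_simp
  ring

/-- `psiN n = - (h n / 8) * A n`: the bounded solution at `n ≥ 0`. -/
noncomputable def psiN (n : ℕ) : ℝ := - (h n / 8) * A n

theorem psiN_zero : psiN 0 = -G := by
  unfold psiN h
  rw [A_zero]
  simp

theorem psiN_succ (n : ℕ) :
    ((n : ℝ) + 1) ^ 3 * psiN (n + 1) + (2 * n + 1) ^ 3 * psiN n = -(3 * (n + 1) - 1) / 2 := by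
  unfold psiN
  have h1 := A_sub n
  rw [R_zero] at h1
  have h2 := h_succ n
  have h3 := h_ne n
  have h4 : 2 * (n : ℝ) + 1 ≠ 0 := by positivity
  have h5 : A (n + 1) = A n - 4 * (3 * n + 2) / ((2 * n + 1) ^ 3 * h n) := by linarith
  have h6 : ((n : ℝ) + 1) ^ 3 * (-(h (n + 1) / 8) * A (n + 1))
      = -(1 / 8) * (((n : ℝ) + 1) ^ 3 * h (n + 1)) * A (n + 1) := by ring
  rw [h6, h2, h5]
  field_simp
  ring

/-- Explicit positive series for `psiN`:
`psi(n) = -(1/8) ∑_j (n+1)_{2j} / (4^j ((n+1/2)_{j+1})^2)`. -/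
theorem hasSum_psiN (n : ℕ) : HasSum (fun j => -(h n / 8) * F n j) (psiN n) :=
  (summable_F n).hasSum.mul_left _

/-- The K3(-8) series: `G = ∑_{n≥0} (3n+2)/(2 (2n+1)^3 h n)`. -/
theorem hasSum_K3 : HasSum (fun n : ℕ => (3 * (n : ℝ) + 2) / (2 * (2 * n + 1) ^ 3 * h n)) G := by
  have hR : ∀ n : ℕ, (3 * (n : ℝ) + 2) / (2 * (2 * n + 1) ^ 3 * h n) = 1 / 8 * R n 0 := by
    intro n
    rw [R_zero]
    have := h_ne n
    have h1 : 2 * (n : ℝ) + 1 ≠ 0 := by positivity
    field_simp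
    ring
  simp only [hR]
  have hs : Summable fun n => R n 0 := by
    have hb : Summable fun n : ℕ => (1 / 3 : ℝ) ^ n * (16 * G) := by
      refine Summable.mul_right _ (summable_geometric_of_lt_one (by norm_num) (by norm_num))
    refine Summable.of_norm_bounded hb fun n => ?_
    rw [Real.norm_eq_abs, ← A_sub]
    have h1 := abs_A_le n
    have h2 := abs_A_le (n + 1)
    rw [pow_succ] at h2
    have h3 := abs_sub (A n) (A (n + 1))
    have h4 : (0 : ℝ) ≤ (1 / 3) ^ n := by positivity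
    have h5 := G_pos
    nlinarith [mul_nonneg h4 h5.le]
  have h1 : HasSum (fun n => R n 0) (8 * G) := by
    rw [hs.hasSum_iff_tendsto_nat]
    simp only [sum_R]
    have h2 : Tendsto A atTop (𝓝 0) := by
      rw [tendsto_zero_iff_abs_tendsto_zero]
      refine squeeze_zero (fun j => abs_nonneg _) abs_A_le ?_
      have := (tendsto_pow_atTop_nhds_zero_of_lt_one (r := (1 / 3 : ℝ)) (by norm_num) (by norm_num)).mul_const (8 * G)
      simpa using this
    simpa using h2.const_sub (8 * G)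
  have h3 := h1.mul_left (1 / 8)
  have e : (1 / 8 : ℝ) * (8 * G) = G := by ring
  rwa [e] at h3

end Crest.Agent.R6K.WZ
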